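import Vale.Agent.H2.P064.SM

/-! The bootstrap. -/

namespace Vale.Agent.H2.P064

open Finset Classical

set_option linter.unusedSectionVars false

section Act
variable {X G : Type} [Fintype X] [Group G] [Fintype G] (a : G →* Equiv.Perm X)

/-- The hypothesis: all subsets of `H` have expected number of copies at least `1/2`. -/
def Hyp (q : ℝ) (H : Finset X) : Prop := ∀ U ⊆ H, 1 / 2 ≤ (N a univ U : ℝ) * q ^ U.card

theorem Hyp.mono {q : ℝ} {H F : Finset X} (h : Hyp a q H) (hF : F ⊆ H) : Hyp a q F :=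
  fun U hU => h U (hU.trans hF)

/-- the maximiser -/
theorem exists_max (H : Finset X) (lam : ℝ) (hl : 0 < lam) :
    ∃ F ⊆ H, ∃ rho : ℝ, 0 < rho ∧ P a H F = rho * lam ^ F.card ∧
      ∀ U ⊆ H, P a H U ≤ rho * lam ^ U.card := by
  obtain ⟨F, hF, hmax⟩ := Finset.exists_max_image H.powerset
    (fun U => P a H U / lam ^ U.card) ⟨∅, by simp⟩
  refine ⟨F, Finset.mem_powerset.1 hF, P a H F / lam ^ F.card, ?_, ?_, ?_⟩
  · have := hmax ∅ (by simp)
    rw [P_empty] at this
    simp only [Finset.card_empty, pow_zero, div_one] at this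
    linarith
  · field_simp
  · intro U hU
    have := hmax U (Finset.mem_powerset.2 hU)
    rwa [div_le_iff₀ (by positivity)] at this

/-- The core iteration. -/
theorem core_step (q : ℝ) (hq : 0 < q) (H : Finset X) (Δ c Lmax : ℝ) (hΔ : 0 < Δ)
    (hD : ∀ F ⊆ H, ∀ L : ℝ, Δ ≤ L → L ≤ Lmax →
      D a (L * q) F ≤ Real.exp (c + F.card * Δ / L)) (k : ℕ) (hk : (k + 1) * Δ ≤ Lmax) :
    ∀ U ⊆ H, P a H U ≤ Real.exp (c + H.card / 2 ^ k) * ((k + 1) * Δ * q) ^ U.card := by
  induction k with
  | zero =>
    intro U hU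
    simp only [Nat.cast_zero, zero_add, one_mul, pow_zero, div_one] at hk ⊢
    have hl : 0 < Δ * q := by positivity
    obtain ⟨F, hFH, rho, hrho, h1, h2⟩ := exists_max a H (Δ * q) hl
    have h3 := second_moment a H F (Δ * q) rho hl hrho h2 h1
    have h4 := hD F hFH Δ le_rfl hk
    refine (h2 U hU).trans ?_
    apply mul_le_mul_of_nonneg_right _ (by positivity)
    refine h3.trans (h4.trans ?_)
    apply Real.exp_le_exp.2
    have h5 : (F.card : ℝ) ≤ H.card := by exact_mod_cast Finset.card_le_card hFH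
    have h6 : (F.card : ℝ) * Δ / Δ = F.card := by field_simp
    rw [h6]; linarith
  | succ k ih =>
    intro U hU
    push_cast at hk ⊢
    have hk0 : ((k : ℝ) + 1) * Δ ≤ Lmax := by nlinarith
    have ih' := ih hk0
    set L : ℝ := ((k : ℝ) + 1) * Δ with hL
    set L' : ℝ := ((k : ℝ) + 1 + 1) * Δ with hL'
    have hLpos : 0 < L := by positivity
    have hL'pos : 0 < L' := by positivity
    have hLL' : L = L' - Δ := by rw [hL, hL']; ring
    have hl : 0 < L' * q := by positivity
    obtain ⟨F, hFH, rho, hrho, h1, h2⟩ := exists_max a H (L' * q) hl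
    have h3 := second_moment a H F (L' * q) rho hl hrho h2 h1
    have hΔL' : Δ ≤ L' := by
      rw [hL']; nlinarith [show (0:ℝ) ≤ k from Nat.cast_nonneg k]
    have h4 := hD F hFH L' hΔL' hk
    have h5 := ih' F hFH
    rw [h1] at h5
    -- rho * (L' q)^f ≤ exp(...) (L q)^f
    have h6 : rho ≤ Real.exp (c + H.card / 2 ^ k) * (L / L') ^ F.card := by
      have h7 : (L' * q) ^ F.card = L' ^ F.card * q ^ F.card := mul_pow _ _ _
      have h8 : (L * q) ^ F.card = L ^ F.card * q ^ F.card := mul_pow _ _ _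
      rw [h7, h8] at h5
      have h9 : (0:ℝ) < q ^ F.card := by positivity
      have h10 : (0:ℝ) < L' ^ F.card := by positivity
      rw [div_pow, ← mul_div_assoc, le_div_iff₀ h10]
      have h11 : rho * L' ^ F.card * q ^ F.card ≤
          Real.exp (c + H.card / 2 ^ k) * L ^ F.card * q ^ F.card := by
        calc rho * L' ^ F.card * q ^ F.card = rho * (L' ^ F.card * q ^ F.card) := by ring
          _ ≤ _ := h5
          _ = _ := by ring
      exact le_of_mul_le_mul_right h11 h9
    have h7 : (L / L') ^ F.card ≤ Real.exp (-(F.card * Δ / L')) := by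
      have h8 : L / L' ≤ Real.exp (-(Δ / L')) := by
        have := Real.add_one_le_exp (-(Δ / L'))
        have h9 : L / L' = -(Δ / L') + 1 := by
          rw [hLL']; field_simp; ring
        rw [h9]; exact this
      calc (L / L') ^ F.card ≤ (Real.exp (-(Δ / L'))) ^ F.card := by
            apply pow_le_pow_left₀ (by positivity) h8
        _ = Real.exp (-(F.card * Δ / L')) := by
            rw [← Real.exp_nat_mul]; congr 1; ring
    have h8 : rho ^ 2 ≤ Real.exp (c + H.card / 2 ^ (k+1)) ^ 2 := by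
      calc rho ^ 2 = rho * rho := sq _
        _ ≤ Real.exp (c + F.card * Δ / L') *
            (Real.exp (c + H.card / 2 ^ k) * Real.exp (-(F.card * Δ / L'))) := by
            apply mul_le_mul (h3.trans h4) (h6.trans _) hrho.le (Real.exp_pos _).le
            exact mul_le_mul_of_nonneg_left h7 (Real.exp_pos _).le
        _ = Real.exp (c + H.card / 2 ^ (k+1)) ^ 2 := by
            rw [← Real.exp_add, ← Real.exp_add, ← Real.exp_nat_mul]
            congr 1
            rw [pow_succ]; field_simp; push_cast; ring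
    have h9 : rho ≤ Real.exp (c + H.card / 2 ^ (k+1)) :=
      (pow_le_pow_iff_left₀ hrho.le (Real.exp_pos _).le two_ne_zero).1 h8
    exact (h2 U hU).trans (mul_le_mul_of_nonneg_right h9 (by positivity))

theorem P_le_choose (q : ℝ) (hq : 0 < q) (F J : Finset X) (hF : Hyp a q F) (hJ : J ⊆ F) :
    P a F J ≤ 2 * (F.card.choose J.card : ℝ) * q ^ J.card := by
  have h1 := P_mul_N a F J
  have h2 := N_le_choose a F J
  have h3 := hF J hJ
  have h4 : (N a F J : ℝ) ≤ (F.card.choose J.card : ℝ) := by exact_mod_cast h2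
  have hN : (0:ℝ) < (N a univ J : ℝ) := by exact_mod_cast N_univ_pos a J
  have hP := P_nonneg a F J
  have h5 : P a F J ≤ 2 * (P a F J * (N a univ J : ℝ)) * q ^ J.card := by nlinarith
  refine h5.trans ?_
  rw [h1]
  apply mul_le_mul_of_nonneg_right _ (by positivity)
  linarith

/-- Sum over the powerset of a function of the cardinality bounded by binomials. -/
theorem sum_powerset_choose (F : Finset X) (g : ℕ → ℝ) :
    ∑ J ∈ F.powerset, g J.card = ∑ j ∈ range (F.card + 1), (F.card.choose j : ℝ) * g j := by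
  rw [Finset.sum_powerset_apply_card]
  simp [nsmul_eq_mul]

theorem sum_choose_pow (f : ℕ) (x : ℝ) :
    ∑ j ∈ range (f + 1), (f.choose j : ℝ) * x ^ j = (1 + x) ^ f := by
  rw [add_comm 1 x, add_pow]
  apply Finset.sum_congr rfl
  intro j _
  simp; ring

theorem one_add_pow_le_exp (x : ℝ) (hx : 0 ≤ x) (f : ℕ) : (1 + x) ^ f ≤ Real.exp (f * x) := by
  rw [Real.exp_nat_mul]
  apply pow_le_pow_left₀ (by positivity)
  have := Real.add_one_le_exp x
  linarith

/-- Level zero bound for `D`. -/
theorem D_le_zero (q : ℝ) (hq : 0 < q) (F : Finset X) (hF : Hyp a q F) (s : ℝ) (hs : 0 < s) :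
    D a (s ^ 2 * q) F ≤ 2 * Real.exp (2 * F.card / s) := by
  have h1 : D a (s ^ 2 * q) F ≤
      ∑ J ∈ F.powerset, 2 * (F.card.choose J.card : ℝ) * (1 / s) ^ (2 * J.card) := by
    unfold D
    apply Finset.sum_le_sum
    intro J hJ
    rw [mem_powerset] at hJ
    have h2 := P_le_choose a q hq F J hF hJ
    rw [div_le_iff₀ (by positivity)]
    refine h2.trans (le_of_eq ?_)
    rw [mul_pow, ← pow_mul, one_div, inv_pow]
    field_simp
  refine h1.trans ?_
  rw [sum_powerset_choose F (fun j => 2 * (F.card.choose j : ℝ) * (1 / s) ^ (2 * j))]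
  have h2 : ∑ j ∈ range (F.card + 1), (F.card.choose j : ℝ) * (2 * (F.card.choose j : ℝ) * (1 / s) ^ (2 * j)) ≤
      2 * (∑ j ∈ range (F.card + 1), (F.card.choose j : ℝ) * (1 / s) ^ j) ^ 2 := by
    have h3 : ∑ j ∈ range (F.card + 1), (F.card.choose j : ℝ) * (2 * (F.card.choose j : ℝ) * (1 / s) ^ (2 * j)) =
        2 * ∑ j ∈ range (F.card + 1), ((F.card.choose j : ℝ) * (1 / s) ^ j) ^ 2 := by
      rw [Finset.mul_sum]
      apply Finset.sum_congr rfl
      intro j _
      rw [mul_comm 2 j, pow_mul]; ring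
    rw [h3]
    apply mul_le_mul_of_nonneg_left _ (by norm_num)
    apply Finset.sum_sq_le_sq_sum_of_nonneg
    intro j _; positivity
  refine h2.trans ?_
  rw [sum_choose_pow]
  apply mul_le_mul_of_nonneg_left _ (by norm_num)
  calc ((1 + 1 / s) ^ F.card) ^ 2 ≤ (Real.exp (F.card * (1 / s))) ^ 2 := by
        apply pow_le_pow_left₀ (by positivity)
        exact one_add_pow_le_exp _ (by positivity) _
    _ = Real.exp (2 * F.card / s) := by
        rw [← Real.exp_nat_mul]; congr 1; push_cast; ring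

/-- Bootstrapped bound for `D`. -/
theorem D_le_level (q : ℝ) (hq : 0 < q) (F : Finset X) (hF : Hyp a q F) (K : ℕ) (ψ : ℝ)
    (hψ : 2 * ((K : ℝ) + 1) ≤ ψ)
    (hP : ∀ J ⊆ F, J.Nonempty → F.card ≤ 2 ^ K * J.card → P a F J ≤ (ψ * q) ^ J.card)
    (L : ℝ) (hL1 : 1 ≤ L) (hL2 : L ≤ 2 ^ K) :
    D a (L * q) F ≤ 3 * Real.exp (F.card * ψ / L) := by
  have hψ0 : 0 < ψ := by
    have : (0:ℝ) ≤ K := Nat.cast_nonneg K
    linarith
  have hL0 : 0 < L := by linarith
  set f := F.card with hf
  have h1 : ∀ J ∈ F.powerset, P a F J / (L * q) ^ J.card ≤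
      (ψ / L) ^ J.card + (if 2 ^ K * J.card < f then 2 * (f.choose J.card : ℝ) else 0) := by
    intro J hJ
    rw [mem_powerset] at hJ
    by_cases hJ0 : J.Nonempty
    · by_cases hc : 2 ^ K * J.card < f
      · rw [if_pos hc]
        have h2 := P_le_choose a q hq F J hF hJ
        have h3 : P a F J / (L * q) ^ J.card ≤ 2 * (f.choose J.card : ℝ) := by
          rw [div_le_iff₀ (by positivity)]
          refine h2.trans ?_
          rw [mul_pow]
          have h4 : (1:ℝ) ≤ L ^ J.card := one_le_pow₀ hL1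
          have h5 : (0:ℝ) ≤ 2 * (f.choose J.card : ℝ) * q ^ J.card := by positivity
          nlinarith
        have h6 : (0:ℝ) ≤ (ψ / L) ^ J.card := by positivity
        linarith
      · rw [if_neg hc, add_zero]
        have h2 := hP J hJ hJ0 (not_lt.1 hc)
        rw [div_le_iff₀ (by positivity)]
        refine h2.trans (le_of_eq ?_)
        rw [← mul_pow]
        congr 1
        field_simp
    · rw [Finset.not_nonempty_iff_eq_empty] at hJ0
      subst hJ0
      rw [P_empty]
      simp only [Finset.card_empty, pow_zero, mul_zero, div_one]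
      split_ifs <;> simp
  have h2 : D a (L * q) F ≤ ∑ J ∈ F.powerset, (ψ / L) ^ J.card +
      ∑ J ∈ F.powerset, (if 2 ^ K * J.card < f then 2 * (f.choose J.card : ℝ) else 0) := by
    rw [← Finset.sum_add_distrib]
    exact Finset.sum_le_sum h1
  have h3 : ∑ J ∈ F.powerset, (ψ / L) ^ J.card ≤ Real.exp (f * ψ / L) := by
    rw [sum_powerset_choose F (fun j => (ψ / L) ^ j), sum_choose_pow, mul_div_assoc]
    exact one_add_pow_le_exp _ (by positivity) _
  set z : ℝ := 1 / 2 ^ K with hz
  have hz0 : 0 < z := by positivity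
  have h4 : ∑ J ∈ F.powerset, (if 2 ^ K * J.card < f then 2 * (f.choose J.card : ℝ) else 0) ≤
      2 * Real.exp (f * ψ / L) := by
    rw [sum_powerset_choose F (fun j => (if 2 ^ K * j < f then 2 * (f.choose j : ℝ) else 0))]
    have h5 : ∑ j ∈ range (f + 1), (f.choose j : ℝ) *
          (if 2 ^ K * j < f then 2 * (f.choose j : ℝ) else 0) ≤
        2 * (∑ j ∈ range (f + 1), if 2 ^ K * j < f then (f.choose j : ℝ) else 0) ^ 2 := by
      have h6 : ∑ j ∈ range (f + 1), (f.choose j : ℝ) *
          (if 2 ^ K * j < f then 2 * (f.choose j : ℝ) else 0) =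
          2 * ∑ j ∈ range (f + 1), (if 2 ^ K * j < f then (f.choose j : ℝ) else 0) ^ 2 := by
        rw [Finset.mul_sum]
        apply Finset.sum_congr rfl
        intro j _
        split_ifs <;> ring
      rw [h6]
      apply mul_le_mul_of_nonneg_left _ (by norm_num)
      apply Finset.sum_sq_le_sq_sum_of_nonneg
      intro j _; positivity
    refine h5.trans ?_
    apply mul_le_mul_of_nonneg_left _ (by norm_num)
    have h7 : (∑ j ∈ range (f + 1), if 2 ^ K * j < f then (f.choose j : ℝ) else 0) ≤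
        Real.exp (f * z * (K + 1)) := by
      have h8 : (∑ j ∈ range (f + 1), if 2 ^ K * j < f then (f.choose j : ℝ) else 0) ≤
          Real.exp (f * z * K) * ∑ j ∈ range (f + 1), (f.choose j : ℝ) * z ^ j := by
        rw [Finset.mul_sum]
        apply Finset.sum_le_sum
        intro j _
        split_ifs with hc
        · have h9 : (1:ℝ) ≤ Real.exp (f * z * K) * z ^ j := by
            have h10 : z = Real.exp (-(K * Real.log 2)) := by
              rw [hz, Real.exp_neg, Real.exp_nat_mul, Real.exp_log (by norm_num)]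
              simp
            have h11 : z ^ j = Real.exp (-(j * (K * Real.log 2))) := by
              rw [h10, ← Real.exp_nat_mul]; congr 1; ring
            rw [h11, ← Real.exp_add]
            apply Real.one_le_exp
            have h12 : (j : ℝ) ≤ f * z := by
              rw [hz, mul_one_div, le_div_iff₀ (by positivity)]
              have : (2 ^ K * j : ℕ) ≤ f := hc.le
              have h13 : ((2 ^ K * j : ℕ) : ℝ) ≤ f := by exact_mod_cast this
              push_cast at h13; linarith
            have h13 : Real.log 2 ≤ 1 := by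
              have := Real.log_two_lt_d9; linarith
            have h14 : 0 ≤ Real.log 2 := Real.log_nonneg (by norm_num)
            have hK : (0:ℝ) ≤ K := Nat.cast_nonneg K
            have hj : (0:ℝ) ≤ j := Nat.cast_nonneg j
            have h15 : (j : ℝ) * (K * Real.log 2) ≤ f * z * K := by
              calc (j : ℝ) * (K * Real.log 2) ≤ j * (K * 1) := by gcongr
                _ = j * K := by ring
                _ ≤ f * z * K := by gcongr
            linarith
          have h16 : (0:ℝ) ≤ (f.choose j : ℝ) := by positivity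
          nlinarith
        · positivity
      rw [sum_choose_pow] at h8
      refine h8.trans ?_
      have h9 := one_add_pow_le_exp z hz0.le f
      calc Real.exp (f * z * K) * (1 + z) ^ f ≤ Real.exp (f * z * K) * Real.exp (f * z) := by
            gcongr
        _ = Real.exp (f * z * (K + 1)) := by rw [← Real.exp_add]; congr 1; ring
    have h8 : 0 ≤ (∑ j ∈ range (f + 1), if 2 ^ K * j < f then (f.choose j : ℝ) else 0) := by
      positivity
    calc (∑ j ∈ range (f + 1), if 2 ^ K * j < f then (f.choose j : ℝ) else 0) ^ 2 ≤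
          (Real.exp (f * z * (K + 1))) ^ 2 := by gcongr
      _ = Real.exp (f * (2 * (K + 1)) * z) := by
          rw [← Real.exp_nat_mul]; congr 1; push_cast; ring
      _ ≤ Real.exp (f * ψ / L) := by
          apply Real.exp_le_exp.2
          have h9 : z ≤ 1 / L := by
            rw [hz]; exact one_div_le_one_div_of_le hL0 hL2
          have hf0 : (0:ℝ) ≤ f := Nat.cast_nonneg f
          calc (f : ℝ) * (2 * (K + 1)) * z ≤ f * ψ * (1 / L) := by gcongr
            _ = f * ψ / L := by ring
  linarith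

/-- The bound at ratio level `k`. -/
def Lev (ψ : ℕ → ℝ) : Prop :=
  ∀ q : ℝ, 0 < q → ∀ H : Finset X, Hyp a q H → ∀ U ⊆ H, U.Nonempty → ∀ k : ℕ,
    H.card ≤ 2 ^ k * U.card → P a H U ≤ (ψ k * q) ^ U.card

theorem lev_aux (q : ℝ) (hq : 0 < q) (H U : Finset X) (hU0 : U.Nonempty) (k : ℕ) (C Y : ℝ)
    (hC : 1 ≤ C) (hY : 0 < Y)
    (hk : H.card ≤ 2 ^ k * U.card)
    (h : P a H U ≤ Real.exp (Real.log C + H.card / 2 ^ k) * (Y * q) ^ U.card) :
    P a H U ≤ (C * Real.exp 1 * Y * q) ^ U.card := by
  refine h.trans ?_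
  have h1 : (H.card : ℝ) / 2 ^ k ≤ U.card := by
    rw [div_le_iff₀ (by positivity)]
    have : (H.card : ℝ) ≤ ((2 ^ k * U.card : ℕ) : ℝ) := by exact_mod_cast hk
    push_cast at this; linarith
  have h2 : C ≤ C ^ U.card := by
    have := pow_le_pow_right₀ hC (Finset.card_pos.2 hU0)
    simpa using this
  calc Real.exp (Real.log C + H.card / 2 ^ k) * (Y * q) ^ U.card
      = C * Real.exp (H.card / 2 ^ k) * (Y * q) ^ U.card := by
        rw [Real.exp_add, Real.exp_log (by linarith)]
    _ ≤ C ^ U.card * Real.exp U.card * (Y * q) ^ U.card := by gcongr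
    _ = (C * Real.exp 1 * Y * q) ^ U.card := by
        rw [mul_assoc (C * Real.exp 1) Y q, mul_pow (C * Real.exp 1), mul_pow C (Real.exp 1),
          ← Real.exp_nat_mul, mul_one]

theorem lev_one : Lev a (fun k => 8 * Real.exp 1 * ((k : ℝ) + 1) ^ 2) := by
  intro q hq H hH U hU hU0 k hk
  set Δ : ℝ := 4 * ((k : ℝ) + 1) with hΔ
  have hΔ0 : 0 < Δ := by positivity
  have h := core_step a q hq H Δ (Real.log 2) (Δ ^ 2 / 4) hΔ0 (by
    intro F hF L hL1 hL2
    have hL0 : 0 < L := by linarith
    have h1 := D_le_zero a q hq F (hH.mono a hF) (Real.sqrt L) (Real.sqrt_pos.2 hL0)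
    rw [Real.sq_sqrt hL0.le] at h1
    refine h1.trans ?_
    rw [Real.exp_add, Real.exp_log (by norm_num)]
    apply mul_le_mul_of_nonneg_left _ (by norm_num)
    apply Real.exp_le_exp.2
    have h2 : 2 * Real.sqrt L ≤ Δ := by
      have h3 : Real.sqrt L ≤ Δ / 2 := by
        apply Real.sqrt_le_iff.2
        constructor
        · positivity
        · nlinarith
      linarith
    have h4 : 0 < Real.sqrt L := Real.sqrt_pos.2 hL0
    rw [div_le_div_iff₀ h4 hL0]
    have h5 : Real.sqrt L * Real.sqrt L = L := Real.mul_self_sqrt hL0.le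
    have h6 : (0:ℝ) ≤ F.card := Nat.cast_nonneg _
    calc 2 * (F.card : ℝ) * L = F.card * (2 * Real.sqrt L) * Real.sqrt L := by
          rw [← h5]; rw [Real.sqrt_mul_self h4.le]; ring
      _ ≤ F.card * Δ * Real.sqrt L := by gcongr) k (by
    rw [hΔ]; nlinarith) U hU
  have h2 := lev_aux a q hq H U hU0 k 2 (((k : ℝ) + 1) * Δ) (by norm_num) (by positivity) hk h
  refine h2.trans (le_of_eq ?_)
  rw [hΔ]; ring_nf

/-- The bootstrapping step. -/
theorem lev_step (ψ : ℕ → ℝ) (hψ : Lev a ψ) (κ : ℕ → ℕ)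
    (h1 : ∀ k, 2 * ((κ k : ℝ) + 1) ≤ ψ (κ k)) (h2 : ∀ k : ℕ, ((k : ℝ) + 1) * ψ (κ k) ≤ 2 ^ (κ k)) :
    Lev a (fun k => 3 * Real.exp 1 * (((k : ℝ) + 1) * ψ (κ k))) := by
  intro q hq H hH U hU hU0 k hk
  have hψ1 : 1 ≤ ψ (κ k) := by
    have := h1 k
    have h3 : (0:ℝ) ≤ κ k := Nat.cast_nonneg _
    linarith
  have h := core_step a q hq H (ψ (κ k)) (Real.log 3) (2 ^ (κ k)) (by linarith) (by
    intro F hF L hL1 hL2
    have h3 := D_le_level a q hq F (hH.mono a hF) (κ k) (ψ (κ k)) (h1 k)
      (fun J hJ hJ0 hJk => hψ q hq F (hH.mono a hF) J hJ hJ0 (κ k) hJk) L (by linarith) hL2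
    refine h3.trans (le_of_eq ?_)
    rw [Real.exp_add, Real.exp_log (by norm_num)]) k (h2 k) U hU
  exact lev_aux a q hq H U hU0 k 3 (((k : ℝ) + 1) * ψ (κ k)) (by norm_num) (by positivity) hk h

end Act

end Vale.Agent.H2.P064
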