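import Mathlib

/-! Definitions for the second Kahn–Kalai problem (P064). -/

namespace Vale.Agent.H2.P064

open Finset Classical

/-! ### The `p`-biased product measure on the subsets of a finite type -/

section Bias
variable {X : Type} [Fintype X]

/-- The `p`-biased weight of a subset `W` of `X`. -/
noncomputable def bw (p : ℝ) (W : Finset X) : ℝ :=
  p ^ W.card * (1 - p) ^ (Fintype.card X - W.card)

/-- The probability that a `p`-random subset of `X` has property `A`. -/
noncomputable def pr (p : ℝ) (A : Finset X → Prop) : ℝ := ∑ W ∈ univ.filter A, bw p W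

end Bias

/-! ### Orbits of a finite group acting on the subsets of a finite type -/

section Act
variable {X G : Type} [Fintype X] [Group G] [Fintype G] (a : G →* Equiv.Perm X)

/-- The image `g F` of a finset. -/
def im (g : G) (F : Finset X) : Finset X := F.map (a g).toEmbedding

/-- The proportion of the group elements which move `F` into `A`. -/
noncomputable def P (A F : Finset X) : ℝ :=
  ((univ.filter (fun g : G => im a g F ⊆ A)).card : ℝ) / (Fintype.card G : ℝ)

/-- The number of copies (images) of `F` inside `A`. -/
noncomputable def N (A F : Finset X) : ℕ :=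
  (A.powerset.filter (fun S => ∃ g : G, im a g F = S)).card

end Act

/-! ### Graphs -/

/-- The potential edges of a graph on `Fin n`. -/
abbrev EX (n : ℕ) : Type := {e : Sym2 (Fin n) // ¬ e.IsDiag}

/-- The action of `S_n` on the potential edges. -/
def act (n : ℕ) : Equiv.Perm (Fin n) →* Equiv.Perm (EX n) where
  toFun σ :=
    { toFun := fun e => ⟨Sym2.map σ e.1, by
        intro h; apply e.2
        revert h
        refine Sym2.inductionOn e.1 (fun x y => ?_)
        simp⟩
      invFun := fun e => ⟨Sym2.map σ.symm e.1, by
        intro h; apply e.2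
        revert h
        refine Sym2.inductionOn e.1 (fun x y => ?_)
        simp⟩
      left_inv := by
        intro e; apply Subtype.ext; simp [Sym2.map_map]
      right_inv := by
        intro e; apply Subtype.ext; simp [Sym2.map_map] }
  map_one' := by
    ext e : 2; simp
  map_mul' := by
    intro σ τ; ext e : 2; simp [Sym2.map_map, Equiv.Perm.coe_mul]

/-- The edges of (the image in `Fin n` of) a graph on `V`. -/
noncomputable def edg {n : ℕ} {V : Type} (ι : V ↪ Fin n) (H : SimpleGraph V) : Finset (EX n) :=
  univ.filter (fun e => ∃ x y : V, H.Adj x y ∧ e.1 = s(ι x, ι y))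

/-- The weight of the graph `G` under `G(n,p)`. -/
noncomputable def gw (n : ℕ) (p : ℝ) (G : SimpleGraph (Fin n)) : ℝ :=
  p ^ G.edgeFinset.card * (1 - p) ^ (n.choose 2 - G.edgeFinset.card)

/-- The probability that `G(n,p)` has property `A`. -/
noncomputable def gprob (n : ℕ) (p : ℝ) (A : SimpleGraph (Fin n) → Prop) : ℝ :=
  ∑ G ∈ univ.filter A, gw n p G

/-- The expected number of copies of `F` in `G(n,p)`. -/
noncomputable def gexp (n : ℕ) (p : ℝ) {V : Type} (F : SimpleGraph V) : ℝ :=
  ∑ G : SimpleGraph (Fin n), gw n p G * (G.copyCount F : ℝ)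

/-- The set of `p ∈ [0,1]` such that `G(n,p)` contains a copy of `H` with probability at
least `1/2`. -/
def pcSet (n : ℕ) {V : Type} (H : SimpleGraph V) : Set ℝ :=
  {p | 0 ≤ p ∧ p ≤ 1 ∧ 1 / 2 ≤ gprob n p (fun G => 0 < G.copyCount H)}

/-- The set of `p ∈ [0,1]` such that the expected number of copies in `G(n,p)` of each
subgraph `F` of `H` is at least `1/2`. -/
def pESet (n : ℕ) {V : Type} (H : SimpleGraph V) : Set ℝ :=
  {p | 0 ≤ p ∧ p ≤ 1 ∧ ∀ F : H.Subgraph, 1 / 2 ≤ gexp n p F.coe}

/-- The threshold `p_c(n,H)`. -/
noncomputable def pc (n : ℕ) {V : Type} (H : SimpleGraph V) : ℝ := sInf (pcSet n H)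

/-- The expectation threshold `p_E(n,H)`. -/
noncomputable def pE (n : ℕ) {V : Type} (H : SimpleGraph V) : ℝ := sInf (pESet n H)

end Vale.Agent.H2.P064
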