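import Vale.Agent.H2.P064.Boot

/-! Numerics: the spread bound for the orbits of a finite group. -/

namespace Vale.Agent.H2.P064

open Finset Classical

set_option linter.unusedSectionVars false

theorem e_lt : Real.exp 1 < 2.7183 := by
  have := Real.exp_one_lt_d9; linarith

/-- `k + 1 ≤ 2 ^ (L + 1)`. -/
theorem succ_le_pow (k : ℕ) : ((k : ℝ) + 1) ≤ 2 ^ (Nat.log 2 (k + 1) + 1) := by
  have h := Nat.lt_pow_succ_log_self (b := 2) (by norm_num) (k + 1)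
  have h2 : ((k + 1 : ℕ) : ℝ) ≤ ((2 ^ (Nat.log 2 (k + 1)).succ : ℕ) : ℝ) := by
    exact_mod_cast h.le
  push_cast at h2
  exact h2

noncomputable def psi1 (k : ℕ) : ℝ := 8 * Real.exp 1 * ((k : ℝ) + 1) ^ 2

def kap1 (k : ℕ) : ℕ := 2 * Nat.log 2 (k + 1) + 20

noncomputable def psi2 (k : ℕ) : ℝ := 3 * Real.exp 1 * (((k : ℝ) + 1) * psi1 (kap1 k))

def kap2 (k : ℕ) : ℕ := 2 * Nat.log 2 (k + 1) + 40

noncomputable def psi3 (k : ℕ) : ℝ := 3 * Real.exp 1 * (((k : ℝ) + 1) * psi2 (kap2 k))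

theorem poly1 (L : ℕ) : 22 * ((2 * (L : ℝ) + 21)) ^ 2 ≤ 2 ^ (L + 19) := by
  induction L with
  | zero => norm_num
  | succ L ih =>
    have hL : (0:ℝ) ≤ L := Nat.cast_nonneg L
    push_cast
    rw [show L + 1 + 19 = (L + 19) + 1 by ring, pow_succ (2:ℝ) (L + 19)]
    nlinarith

theorem poly2 (L : ℕ) : 180 * (2 * (L : ℝ) + 41) * (2 * (2 * (L : ℝ) + 41) + 21) ^ 2 ≤ 2 ^ (L + 39) := by
  induction L with
  | zero => norm_num
  | succ L ih =>
    have hL : (0:ℝ) ≤ L := Nat.cast_nonneg L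
    push_cast
    rw [show L + 1 + 39 = (L + 39) + 1 by ring, pow_succ (2:ℝ) (L + 39)]
    nlinarith [mul_nonneg hL hL, mul_nonneg hL (mul_nonneg hL hL)]

theorem cond1a (k : ℕ) : 2 * ((kap1 k : ℝ) + 1) ≤ psi1 (kap1 k) := by
  unfold psi1
  have h1 : (1:ℝ) ≤ Real.exp 1 := Real.one_le_exp (by norm_num)
  have h2 : (0:ℝ) ≤ kap1 k := Nat.cast_nonneg _
  nlinarith [mul_nonneg h2 h2]

theorem cond1b (k : ℕ) : ((k : ℝ) + 1) * psi1 (kap1 k) ≤ 2 ^ (kap1 k) := by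
  unfold psi1 kap1
  push_cast
  set L := Nat.log 2 (k + 1) with hL
  have h1 := succ_le_pow k
  rw [← hL] at h1
  have h2 := poly1 L
  have h3 := e_lt
  have h4 : (2:ℝ) ^ (2 * L + 20) = 2 ^ (L + 1) * 2 ^ (L + 19) := by rw [← pow_add]; congr 1; ring
  rw [h4]
  have h5 : 8 * Real.exp 1 * (2 * (L:ℝ) + 20 + 1) ^ 2 ≤ 22 * ((2 * (L : ℝ) + 21)) ^ 2 := by
    have : (0:ℝ) ≤ (2 * (L:ℝ) + 21) ^ 2 := by positivity
    nlinarith
  calc ((k : ℝ) + 1) * (8 * Real.exp 1 * (2 * (L:ℝ) + 20 + 1) ^ 2)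
      ≤ 2 ^ (L + 1) * (22 * ((2 * (L : ℝ) + 21)) ^ 2) := by
        apply mul_le_mul h1 h5 (by positivity) (by positivity)
    _ ≤ _ := by gcongr

theorem cond2a (k : ℕ) : 2 * ((kap2 k : ℝ) + 1) ≤ psi2 (kap2 k) := by
  unfold psi2
  have h0 := cond1a (kap2 k)
  have h1 : (1:ℝ) ≤ Real.exp 1 := Real.one_le_exp (by norm_num)
  have h2 : (0:ℝ) ≤ kap2 k := Nat.cast_nonneg _
  have h3 : (0:ℝ) ≤ kap1 (kap2 k) := Nat.cast_nonneg _
  have h4 : (2:ℝ) ≤ psi1 (kap1 (kap2 k)) := by linarith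
  have h5 : 2 * ((kap2 k : ℝ) + 1) ≤ ((kap2 k : ℝ) + 1) * psi1 (kap1 (kap2 k)) := by nlinarith
  have h6 : 0 ≤ ((kap2 k : ℝ) + 1) * psi1 (kap1 (kap2 k)) := by positivity
  nlinarith

theorem exp_sq_le : Real.exp 1 * Real.exp 1 ≤ 7.4 := by
  have h3 := e_lt
  have he0 : 0 < Real.exp 1 := Real.exp_pos 1
  nlinarith

theorem psi2_aux (u m L : ℝ) (hL : 0 ≤ L) (hu : u = 2 * L + 41) (hm0 : 0 ≤ m)
    (hm : m ≤ 2 * (2 * L + 41) + 21) :
    3 * Real.exp 1 * (u * (8 * Real.exp 1 * m ^ 2)) ≤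
      180 * (2 * L + 41) * (2 * (2 * L + 41) + 21) ^ 2 := by
  have h10 : m ^ 2 ≤ (2 * (2 * L + 41) + 21) ^ 2 := by gcongr
  have h11 := exp_sq_le
  have h12 : u * m ^ 2 ≤ (2 * L + 41) * (2 * (2 * L + 41) + 21) ^ 2 := by
    rw [hu]; gcongr
  have h13 : 0 ≤ u * m ^ 2 := by rw [hu]; positivity
  calc 3 * Real.exp 1 * (u * (8 * Real.exp 1 * m ^ 2))
      = (24 * (Real.exp 1 * Real.exp 1)) * (u * m ^ 2) := by ring
    _ ≤ 180 * ((2 * L + 41) * (2 * (2 * L + 41) + 21) ^ 2) := by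
        apply mul_le_mul (by linarith) h12 h13 (by norm_num)
    _ = _ := by ring

theorem psi2_nonneg (k : ℕ) : 0 ≤ psi2 k := by unfold psi2 psi1; positivity

theorem cond2b_aux (k L : ℕ) (u m P : ℝ) (h1 : ((k : ℝ) + 1) ≤ 2 ^ (L + 1))
    (hP : P = 3 * Real.exp 1 * (u * (8 * Real.exp 1 * m ^ 2)))
    (hu : u = 2 * (L:ℝ) + 41) (hm0 : 0 ≤ m)
    (hm : m ≤ 2 * (2 * (L:ℝ) + 41) + 21) :
    ((k : ℝ) + 1) * P ≤ 2 ^ (2 * L + 40) := by
  have h2 := poly2 L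
  have h4 : (2:ℝ) ^ (2 * L + 40) = 2 ^ (L + 1) * 2 ^ (L + 39) := by rw [← pow_add]; congr 1; ring
  have h7 := psi2_aux u m L (Nat.cast_nonneg L) hu hm0 hm
  rw [← hP] at h7
  have h8 : 0 ≤ P := by rw [hP, hu]; positivity
  have h11 : (0:ℝ) ≤ 2 ^ (L + 1) := by positivity
  rw [h4]
  exact (mul_le_mul h1 h7 h8 h11).trans (mul_le_mul_of_nonneg_left h2 h11)

theorem cond2b (k : ℕ) : ((k : ℝ) + 1) * psi2 (kap2 k) ≤ 2 ^ (kap2 k) := by
  obtain ⟨L, hL⟩ : ∃ L, L = Nat.log 2 (k + 1) := ⟨_, rfl⟩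
  have h1 := succ_le_pow k
  rw [← hL] at h1
  have hk2 : kap2 k = 2 * L + 40 := by unfold kap2; rw [hL]
  have h6 : ((kap1 (kap2 k) : ℕ) : ℝ) + 1 ≤ 2 * (2 * (L:ℝ) + 41) + 21 := by
    have : kap1 (kap2 k) + 1 ≤ 2 * (2 * L + 41) + 21 := by
      unfold kap1
      rw [hk2]
      have := Nat.log_lt_self 2 (x := 2 * L + 40 + 1) (by omega)
      omega
    exact_mod_cast this
  have h8 : ((kap2 k : ℕ) : ℝ) + 1 = 2 * (L:ℝ) + 41 := by
    have h80 : ((kap2 k : ℕ) : ℝ) = ((2 * L + 40 : ℕ) : ℝ) := congrArg (fun m : ℕ => (m : ℝ)) hk2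
    push_cast at h80
    linarith
  have h9 : (0:ℝ) ≤ ((kap1 (kap2 k) : ℕ) : ℝ) + 1 :=
    add_nonneg (Nat.cast_nonneg _) zero_le_one
  have h := cond2b_aux k L (((kap2 k : ℕ) : ℝ) + 1) (((kap1 (kap2 k) : ℕ) : ℝ) + 1)
    (psi2 (kap2 k)) h1 (by unfold psi2 psi1; ring) h8 h9 h6
  calc ((k : ℝ) + 1) * psi2 (kap2 k) ≤ 2 ^ (2 * L + 40) := h
    _ = 2 ^ (kap2 k) := by rw [hk2]

theorem lev_three {X G : Type} [Fintype X] [Group G] [Fintype G] (a : G →* Equiv.Perm X) :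
    Lev a psi3 := by
  have h1 : Lev a psi1 := lev_one a
  have h2 : Lev a psi2 := lev_step a psi1 h1 kap1 cond1a cond1b
  exact lev_step a psi2 h2 kap2 cond2a cond2b

/-- the explicit function of `n` -/
noncomputable def Lam (n : ℕ) : ℝ :=
  Real.log n * (1 + Real.log (Real.log n)) * (1 + Real.log (1 + Real.log (Real.log n))) ^ 2

theorem natlog_le (m : ℕ) (hm : 1 ≤ m) : (Nat.log 2 m : ℝ) ≤ 1.45 * Real.log m := by
  have h1 : (2:ℕ) ^ Nat.log 2 m ≤ m := Nat.pow_log_le_self 2 (by omega)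
  have h2 : (2:ℝ) ^ Nat.log 2 m ≤ m := by exact_mod_cast h1
  have h3 : Real.log ((2:ℝ) ^ Nat.log 2 m) ≤ Real.log m := Real.log_le_log (by positivity) h2
  rw [Real.log_pow] at h3
  have h4 := Real.log_two_gt_d9
  have h5 : (0:ℝ) ≤ Nat.log 2 m := Nat.cast_nonneg _
  nlinarith

theorem log_bounds (n : ℕ) (hn : 2 ≤ n) : 0.69 ≤ Real.log n ∧
    0.62 ≤ 1 + Real.log (Real.log n) ∧ 0.52 ≤ 1 + Real.log (1 + Real.log (Real.log n)) := by
  have h0 : (2:ℝ) ≤ n := by exact_mod_cast hn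
  have h1 : Real.log 2 ≤ Real.log n := Real.log_le_log (by norm_num) h0
  have h2 := Real.log_two_gt_d9
  have h3 : 0.69 ≤ Real.log n := by linarith
  have h4 : 1 - (Real.log n)⁻¹ ≤ Real.log (Real.log n) := Real.one_sub_inv_le_log_of_pos (by linarith)
  have key : ∀ x : ℝ, 0.69 ≤ x → -0.38 ≤ Real.log x := by
    intro x hx
    have h5 : Real.log 0.69 ≤ Real.log x := Real.log_le_log (by norm_num) hx
    have h6 : -0.38 ≤ Real.log 0.69 := by
      rw [Real.le_log_iff_exp_le (by norm_num)]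
      have h7 : Real.exp (-0.38) = (Real.exp 0.38)⁻¹ := by rw [← Real.exp_neg]
      rw [h7, inv_le_comm₀ (Real.exp_pos _) (by norm_num)]
      have h8 := Real.sum_le_exp_of_nonneg (x := 0.38) (by norm_num) 5
      simp [Finset.sum_range_succ, Nat.factorial] at h8
      norm_num at h8 ⊢
      linarith
    linarith
  have h5 := key _ h3
  refine ⟨h3, by linarith, ?_⟩
  have h6 : 0.62 ≤ 1 + Real.log (Real.log n) := by linarith
  have h7 : Real.log 0.62 ≤ Real.log (1 + Real.log (Real.log n)) := Real.log_le_log (by norm_num) h6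
  have h8 : -0.48 ≤ Real.log 0.62 := by
    rw [Real.le_log_iff_exp_le (by norm_num)]
    have h9 : Real.exp (-0.48) = (Real.exp 0.48)⁻¹ := by rw [← Real.exp_neg]
    rw [h9, inv_le_comm₀ (Real.exp_pos _) (by norm_num)]
    have h10 := Real.sum_le_exp_of_nonneg (x := 0.48) (by norm_num) 5
    simp [Finset.sum_range_succ, Nat.factorial] at h10
    norm_num at h10 ⊢
    linarith
  linarith

theorem log80 : Real.log 80 ≤ 4.41 := by
  have h7 : Real.log 80 = 6 * Real.log 2 + Real.log 1.25 := by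
    rw [show (80:ℝ) = 2 ^ 6 * 1.25 by norm_num, Real.log_mul (by norm_num) (by norm_num),
      Real.log_pow]; push_cast; ring
  have h8 := Real.log_two_lt_d9
  have h9 : Real.log 1.25 ≤ 1.25 - 1 := Real.log_le_sub_one_of_pos (by norm_num)
  linarith

theorem log8 : Real.log 8 ≤ 2.08 := by
  have : (8:ℝ) = 2 ^ 3 := by norm_num
  rw [this, Real.log_pow]
  have := Real.log_two_lt_d9
  push_cast; linarith

theorem psi3_aux (a b c x y z : ℝ) (ha : a ≤ 8 * x) (hb : b ≤ 80 * y) (hc : c ≤ 65 * z)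
    (ha0 : 0 ≤ a) (hb0 : 0 ≤ b) (hc0 : 0 ≤ c) (hx0 : 0 < x) (hy0 : 0 < y) (hz0 : 0 < z) :
    3 * Real.exp 1 * (a * (3 * Real.exp 1 * (b * (8 * Real.exp 1 * c ^ 2)))) ≤
      10 ^ 10 * (x * y * z ^ 2) := by
  have he := e_lt
  have he0 : 0 < Real.exp 1 := Real.exp_pos 1
  have h2 := exp_sq_le
  have he3 : Real.exp 1 * Real.exp 1 * Real.exp 1 ≤ 20.2 := by nlinarith
  have hc2 : c ^ 2 ≤ (65 * z) ^ 2 := by gcongr
  calc 3 * Real.exp 1 * (a * (3 * Real.exp 1 * (b * (8 * Real.exp 1 * c ^ 2))))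
      = 72 * (Real.exp 1 * Real.exp 1 * Real.exp 1) * (a * b * c ^ 2) := by ring
    _ ≤ 72 * 20.2 * ((8 * x) * (80 * y) * (65 * z) ^ 2) := by
        gcongr
    _ = (72 * 20.2 * 8 * 80 * 65 ^ 2) * (x * y * z ^ 2) := by ring
    _ ≤ 10 ^ 10 * (x * y * z ^ 2) := by
        apply mul_le_mul_of_nonneg_right (by norm_num) (by positivity)

/-- The spread constant. -/
theorem psi3_le (n : ℕ) (hn : 2 ≤ n) :
    psi3 (2 * Nat.log 2 n + 2) ≤ 10 ^ 10 * Lam n := by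
  obtain ⟨hx, hy, hz⟩ := log_bounds n hn
  have hN := natlog_le n (by omega)
  unfold Lam
  generalize Real.log (n:ℝ) = x at hx hy hz hN ⊢
  obtain ⟨y, hyd⟩ : ∃ y, y = 1 + Real.log x := ⟨_, rfl⟩
  rw [← hyd] at hy hz ⊢
  obtain ⟨z, hzd⟩ : ∃ z, z = 1 + Real.log y := ⟨_, rfl⟩
  rw [← hzd] at hz ⊢
  have hx0 : 0 < x := by linarith
  have hy0 : 0 < y := by linarith
  have hz0 : 0 < z := by linarith
  obtain ⟨k, hk⟩ : ∃ k, k = 2 * Nat.log 2 n + 2 := ⟨_, rfl⟩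
  rw [← hk]
  have hlx : Real.log x = y - 1 := by rw [hyd]; ring
  have hly : Real.log y = z - 1 := by rw [hzd]; ring
  have h1 : (k : ℝ) + 1 ≤ 8 * x := by
    rw [hk]; push_cast
    linarith
  have hk1 : (0:ℝ) < ((k + 1 : ℕ) : ℝ) := by positivity
  have h2 : ((kap2 k : ℕ) : ℝ) + 1 ≤ 80 * y := by
    have h3 := natlog_le (k + 1) (by omega)
    have h4 : Real.log ((k + 1 : ℕ) : ℝ) ≤ Real.log (8 * x) :=
      Real.log_le_log hk1 (by push_cast; exact h1)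
    rw [Real.log_mul (by norm_num) hx0.ne', hlx] at h4
    have h5 := log8
    have h6 : ((kap2 k : ℕ) : ℝ) = 2 * (Nat.log 2 (k + 1) : ℝ) + 40 := by
      unfold kap2; push_cast; ring
    rw [h6]
    linarith
  have hk2 : (0:ℝ) < ((kap2 k + 1 : ℕ) : ℝ) := by positivity
  have h3 : ((kap1 (kap2 k) : ℕ) : ℝ) + 1 ≤ 65 * z := by
    have h3 := natlog_le (kap2 k + 1) (by omega)
    have h4 : Real.log ((kap2 k + 1 : ℕ) : ℝ) ≤ Real.log (80 * y) :=
      Real.log_le_log hk2 (by push_cast; exact h2)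
    rw [Real.log_mul (by norm_num) hy0.ne', hly] at h4
    have h5 := log80
    have h6 : ((kap1 (kap2 k) : ℕ) : ℝ) = 2 * (Nat.log 2 (kap2 k + 1) : ℝ) + 20 := by
      unfold kap1; push_cast; ring
    rw [h6]
    linarith
  exact psi3_aux _ _ _ x y z h1 h2 h3 (by positivity) (by positivity) (by positivity) hx0 hy0 hz0

theorem Lam_pos (n : ℕ) (hn : 2 ≤ n) : 1 ≤ 10 ^ 10 * Lam n := by
  obtain ⟨hx, hy, hz⟩ := log_bounds n hn
  unfold Lam
  have h1 : (0.5:ℝ) ^ 2 ≤ (1 + Real.log (1 + Real.log (Real.log n))) ^ 2 := by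
    apply pow_le_pow_left₀ (by norm_num) (by linarith)
  have h2 : (0.5:ℝ) * 0.5 ≤ Real.log n * (1 + Real.log (Real.log n)) := by
    apply mul_le_mul (by linarith) (by linarith) (by norm_num) (by linarith)
  have h3 : (0.5:ℝ) * 0.5 * 0.5 ^ 2 ≤ Real.log n * (1 + Real.log (Real.log n)) *
      (1 + Real.log (1 + Real.log (Real.log n))) ^ 2 := by
    apply mul_le_mul h2 h1 (by norm_num) (by nlinarith)
  nlinarith

/-- The spread bound in the graph setting. -/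
theorem spread_general (n : ℕ) (hn : 2 ≤ n) (H : Finset (EX n)) (q : ℝ) (hq : 0 < q)
    (hH : ∀ U ⊆ H, 1 / 2 ≤ (N (act n) univ U : ℝ) * q ^ U.card) :
    ∀ U ⊆ H, P (act n) H U ≤ (10 ^ 10 * Lam n * q) ^ U.card := by
  intro U hU
  rcases U.eq_empty_or_nonempty with rfl | hU0
  · rw [P_empty]; simp
  · have hcard : H.card ≤ 2 ^ (2 * Nat.log 2 n + 2) * U.card := by
      have h1 : H.card ≤ Fintype.card (EX n) := Finset.card_le_univ _
      have h2 : Fintype.card (EX n) = n.choose 2 := by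
        rw [Sym2.card_subtype_not_diag, Fintype.card_fin]
      have h3 : n.choose 2 ≤ n ^ 2 := Nat.choose_le_pow n 2
      have h4 : n < 2 ^ (Nat.log 2 n + 1) := Nat.lt_pow_succ_log_self (by norm_num) n
      have h5 : n ^ 2 ≤ (2 ^ (Nat.log 2 n + 1)) ^ 2 := Nat.pow_le_pow_left h4.le 2
      have h6 : (2 ^ (Nat.log 2 n + 1)) ^ 2 = 2 ^ (2 * Nat.log 2 n + 2) := by
        rw [← pow_mul]; congr 1; ring
      have h7 : 1 ≤ U.card := Finset.card_pos.2 hU0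
      calc H.card ≤ 2 ^ (2 * Nat.log 2 n + 2) := by rw [← h6]; omega
        _ ≤ 2 ^ (2 * Nat.log 2 n + 2) * U.card := Nat.le_mul_of_pos_right _ h7
    have h := lev_three (act n) q hq H hH U hU hU0 (2 * Nat.log 2 n + 2) hcard
    refine h.trans ?_
    have h0 : 0 ≤ psi3 (2 * Nat.log 2 n + 2) := by unfold psi3 psi2 psi1; positivity
    have := psi3_le n hn
    gcongr

end Vale.Agent.H2.P064
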