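import Vale.Agent.H2.P064.Defs

/-! Second moment method for orbits of a finite group. -/

namespace Vale.Agent.H2.P064

open Finset Classical

set_option linter.unusedSectionVars false

section Act
variable {X G : Type} [Fintype X] [Group G] [Fintype G] (a : G →* Equiv.Perm X)

theorem mem_im (g : G) (F : Finset X) (x : X) : x ∈ im a g F ↔ a g⁻¹ x ∈ F := by
  unfold im
  rw [Finset.mem_map]
  constructor
  · rintro ⟨y, hy, rfl⟩
    simpa [map_inv] using hy
  · intro h
    exact ⟨a g⁻¹ x, h, by simp [map_inv]⟩

theorem im_one (F : Finset X) : im a 1 F = F := by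
  ext x; rw [mem_im]; simp

theorem im_mul (g h : G) (F : Finset X) : im a (g * h) F = im a g (im a h F) := by
  ext x; rw [mem_im, mem_im, mem_im]; simp [mul_inv_rev, Equiv.Perm.mul_apply]

theorem card_im (g : G) (F : Finset X) : (im a g F).card = F.card := by
  unfold im; simp

theorem im_subset_im (g : G) {F F' : Finset X} : im a g F ⊆ im a g F' ↔ F ⊆ F' := by
  unfold im; exact Finset.map_subset_map

theorem im_union (g : G) (F F' : Finset X) : im a g (F ∪ F') = im a g F ∪ im a g F' := by
  unfold im; exact Finset.map_union _ _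

theorem im_inv_im (g : G) (F : Finset X) : im a g⁻¹ (im a g F) = F := by
  rw [← im_mul]; simp [im_one]

theorem im_im_inv (g : G) (F : Finset X) : im a g (im a g⁻¹ F) = F := by
  rw [← im_mul]; simp [im_one]

theorem im_subset_iff (g : G) {F F' : Finset X} : im a g F ⊆ F' ↔ F ⊆ im a g⁻¹ F' := by
  rw [← im_subset_im a g⁻¹, im_inv_im]

theorem cardG_pos : (0 : ℝ) < (Fintype.card G : ℝ) := by
  exact_mod_cast Fintype.card_pos

theorem P_eq (A F : Finset X) :
    P a A F = (∑ g : G, if im a g F ⊆ A then (1 : ℝ) else 0) / Fintype.card G := by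
  unfold P
  rw [Finset.sum_boole]

theorem P_nonneg (A F : Finset X) : 0 ≤ P a A F := by
  unfold P; positivity

theorem P_empty (A : Finset X) : P a A ∅ = 1 := by
  unfold P im
  simp

theorem P_im_right (A F : Finset X) (g : G) : P a A (im a g F) = P a A F := by
  rw [P_eq, P_eq]
  congr 1
  apply Fintype.sum_equiv (Equiv.mulRight g)
  intro h
  simp [im_mul]

theorem P_im_left (A F : Finset X) (g : G) : P a (im a g A) F = P a A F := by
  rw [P_eq, P_eq]
  congr 1
  apply Fintype.sum_equiv (Equiv.mulLeft g⁻¹)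
  intro h
  have : im a h F ⊆ im a g A ↔ im a (g⁻¹ * h) F ⊆ A := by
    rw [im_mul, im_subset_iff a g⁻¹, inv_inv]
  by_cases h' : im a (g⁻¹ * h) F ⊆ A
  · simp [this, h']
  · simp [this, h']

theorem P_pos_iff (A F : Finset X) : 0 < P a A F ↔ ∃ g : G, im a g F ⊆ A := by
  unfold P
  rw [div_pos_iff_of_pos_right cardG_pos]
  rw [Nat.cast_pos, Finset.card_pos]
  constructor
  · rintro ⟨g, hg⟩; exact ⟨g, by simpa using hg⟩
  · rintro ⟨g, hg⟩; exact ⟨g, by simpa using hg⟩

/-- the stabiliser count -/
theorem card_filter_eq (F S : Finset X) (h : ∃ g : G, im a g F = S) :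
    (univ.filter (fun g : G => im a g F = S)).card = (univ.filter (fun g : G => im a g F = F)).card := by
  obtain ⟨k, rfl⟩ := h
  apply Finset.card_bij (fun g _ => k⁻¹ * g)
  · intro g hg
    simp only [mem_filter, mem_univ, true_and] at hg ⊢
    rw [im_mul, hg, im_inv_im]
  · intro g _ g' _ h
    exact mul_left_cancel h
  · intro g hg
    simp only [mem_filter, mem_univ, true_and] at hg
    refine ⟨k * g, ?_, by simp⟩
    simp only [mem_filter, mem_univ, true_and]
    rw [im_mul, hg]

theorem card_sub (A F : Finset X) :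
    (univ.filter (fun g : G => im a g F ⊆ A)).card =
      N a A F * (univ.filter (fun g : G => im a g F = F)).card := by
  unfold N
  rw [← smul_eq_mul, ← Finset.sum_const]
  rw [Finset.card_eq_sum_card_fiberwise (f := fun g => im a g F)
    (t := A.powerset.filter (fun S => ∃ g : G, im a g F = S))]
  · apply Finset.sum_congr rfl
    intro S hS
    rw [mem_filter, mem_powerset] at hS
    rw [← card_filter_eq a F S hS.2]
    congr 1
    ext g
    simp only [mem_filter, mem_univ, true_and]
    constructor
    · rintro ⟨_, h⟩; exact h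
    · intro h; exact ⟨h ▸ hS.1, h⟩
  · intro g hg
    simp only [coe_filter, mem_univ, true_and, Set.mem_ofPred_eq, mem_powerset] at hg ⊢
    exact ⟨hg, g, rfl⟩

theorem N_univ_pos (F : Finset X) : 0 < N a univ F := by
  unfold N
  rw [Finset.card_pos]
  exact ⟨F, by simp only [powerset_univ, mem_filter, mem_univ, true_and]; exact ⟨1, im_one a F⟩⟩

theorem P_mul_N (A F : Finset X) : P a A F * (N a univ F : ℝ) = (N a A F : ℝ) := by
  have h1 := card_sub a A F
  have h2 := card_sub a univ F
  have h3 : (univ.filter (fun g : G => im a g F ⊆ univ)).card = Fintype.card G := by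
    simp
  rw [h3] at h2
  have hs : (0:ℝ) < ((univ.filter (fun g : G => im a g F = F)).card : ℝ) := by
    have : 0 < (univ.filter (fun g : G => im a g F = F)).card := by
      rw [Finset.card_pos]
      exact ⟨1, by simp [im_one]⟩
    exact_mod_cast this
  unfold P
  rw [h1, h2]
  push_cast
  have hN : (0:ℝ) < (N a univ F : ℝ) := by exact_mod_cast N_univ_pos a F
  field_simp

theorem N_le_choose (A F : Finset X) : N a A F ≤ A.card.choose F.card := by
  unfold N
  rw [← Finset.card_powersetCard]
  apply Finset.card_le_card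
  intro S hS
  rw [mem_filter, mem_powerset] at hS
  rw [mem_powersetCard]
  obtain ⟨h1, g, hg⟩ := hS
  exact ⟨h1, by rw [← hg, card_im]⟩

/-- second moment identity -/
theorem P_sq (A F : Finset X) :
    P a A F ^ 2 = (∑ h : G, P a A (F ∪ im a h F)) / Fintype.card G := by
  simp_rw [P_eq]
  rw [← Finset.sum_div, div_pow, div_div, ← sq]
  congr 1
  rw [sq, Finset.sum_mul_sum, Finset.sum_comm]
  rw [Finset.sum_comm]
  rw [Finset.sum_comm (f := fun h g => if im a g (F ∪ im a h F) ⊆ A then (1:ℝ) else 0)]
  apply Finset.sum_congr rfl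
  intro g _
  apply Fintype.sum_equiv (Equiv.mulLeft g⁻¹)
  intro h
  have : im a g (F ∪ im a (g⁻¹ * h) F) ⊆ A ↔ (im a g F ⊆ A ∧ im a h F ⊆ A) := by
    rw [im_union, im_mul, im_im_inv, Finset.union_subset_iff]
  simp only [Equiv.coe_mulLeft, this]
  by_cases h1 : im a g F ⊆ A <;> by_cases h2 : im a h F ⊆ A <;> simp [h1, h2]

theorem im_inter (g : G) (F F' : Finset X) : im a g (F ∩ F') = im a g F ∩ im a g F' := by
  unfold im; exact Finset.map_inter _ _

/-- The functional `D`. -/
noncomputable def D (lam : ℝ) (F : Finset X) : ℝ :=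
  ∑ J ∈ F.powerset, P a F J / lam ^ J.card

/-- The main second moment inequality -/
theorem second_moment (H F : Finset X) (lam rho : ℝ) (hl : 0 < lam) (hr : 0 < rho)
    (h1 : ∀ U ⊆ H, P a H U ≤ rho * lam ^ U.card) (h2 : P a H F = rho * lam ^ F.card) :
    rho ≤ D a lam F := by
  have h1' : ∀ U, P a H U ≤ rho * lam ^ U.card := by
    intro U
    by_cases hU : ∃ g : G, im a g U ⊆ H
    · obtain ⟨g, hg⟩ := hU
      have := h1 _ hg
      rwa [P_im_right, card_im] at this
    · have : ¬ 0 < P a H U := by rw [P_pos_iff]; exact hU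
      have h0 : P a H U = 0 := le_antisymm (not_lt.1 this) (P_nonneg a H U)
      rw [h0]; positivity
  have hG : (0:ℝ) < (Fintype.card G : ℝ) := cardG_pos
  have h3 := P_sq a H F
  have h4 : ∀ h : G, P a H (F ∪ im a h F) ≤
      rho * lam ^ (2 * F.card) * (∑ J ∈ F.powerset, if im a h⁻¹ J ⊆ F then 1 / lam ^ J.card else 0) := by
    intro h
    refine (h1' _).trans ?_
    rw [mul_assoc]
    apply mul_le_mul_of_nonneg_left _ hr.le
    have h5 : (F ∪ im a h F).card + (F ∩ im a h F).card = 2 * F.card := by
      rw [Finset.card_union_add_card_inter, card_im]; ring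
    have h6 : lam ^ (F ∪ im a h F).card = lam ^ (2 * F.card) * (1 / lam ^ (F ∩ im a h F).card) := by
      rw [← h5, pow_add]
      field_simp
    rw [h6]
    apply mul_le_mul_of_nonneg_left _ (by positivity)
    have hmem : F ∩ im a h F ∈ F.powerset := by
      rw [mem_powerset]; exact Finset.inter_subset_left
    have hsub : im a h⁻¹ (F ∩ im a h F) ⊆ F := by
      rw [im_inter, im_inv_im]; exact Finset.inter_subset_right
    have := Finset.single_le_sum (f := fun J => if im a h⁻¹ J ⊆ F then 1 / lam ^ J.card else 0)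
      (s := F.powerset) (fun J _ => by split_ifs <;> positivity) hmem
    simpa [hsub] using this
  have h5 : (∑ h : G, P a H (F ∪ im a h F)) ≤
      rho * lam ^ (2 * F.card) * (D a lam F * Fintype.card G) := by
    refine (Finset.sum_le_sum (fun h _ => h4 h)).trans ?_
    rw [← Finset.mul_sum]
    apply mul_le_mul_of_nonneg_left _ (by positivity)
    rw [Finset.sum_comm]
    unfold D
    rw [Finset.sum_mul]
    apply le_of_eq
    apply Finset.sum_congr rfl
    intro J _
    rw [P_eq]
    have h7 : ∑ g : G, (if im a g⁻¹ J ⊆ F then 1 / lam ^ J.card else 0) =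
        ∑ g : G, (if im a g J ⊆ F then 1 / lam ^ J.card else 0) := by
      apply Fintype.sum_equiv (Equiv.inv G)
      intro g; simp
    rw [h7]
    have h8 : ∑ g : G, (if im a g J ⊆ F then 1 / lam ^ J.card else 0) =
        (∑ g : G, if im a g J ⊆ F then (1:ℝ) else 0) * (1 / lam ^ J.card) := by
      rw [Finset.sum_mul]
      apply Finset.sum_congr rfl
      intro g _; split_ifs <;> simp
    rw [h8]
    field_simp
  rw [h2] at h3
  have h9 : (rho * lam ^ F.card) ^ 2 ≤ rho * lam ^ (2 * F.card) * D a lam F := by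
    rw [h3]
    rw [div_le_iff₀ hG]
    linarith
  have h10 : (rho * lam ^ F.card) ^ 2 = rho * lam ^ (2 * F.card) * rho := by
    rw [mul_comm 2, pow_mul]; ring
  rw [h10] at h9
  exact le_of_mul_le_mul_left h9 (by positivity)

end Act

end Vale.Agent.H2.P064
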