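import Vale.Agent.H2.P064.Defs

/-! Elementary facts on the `p`-biased product measure (P064, row T1). -/

namespace Vale.Agent.H2.P064

open Finset Classical

section T1

variable {X : Type} [Fintype X]

theorem bw_nonneg {p : ℝ} (h0 : 0 ≤ p) (h1 : p ≤ 1) (W : Finset X) : 0 ≤ bw p W :=
  mul_nonneg (pow_nonneg h0 _) (pow_nonneg (sub_nonneg.2 h1) _)

/-- T1. Total mass one. -/
theorem sum_bw {X : Type} [Fintype X] (p : ℝ) : ∑ W : Finset X, bw p W = 1 := by
  have h := Finset.sum_pow_mul_eq_add_pow p (1 - p) (Finset.univ : Finset X)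
  rw [Finset.powerset_univ, Finset.card_univ] at h
  unfold bw
  rw [h]
  norm_num

/-- the weight of the second set given the union -/
theorem sum_bw_fiber (p : ℝ) {W₁ U : Finset X} (h : W₁ ⊆ U) :
    ∑ W₂ ∈ univ.filter (fun W₂ : Finset X => W₁ ∪ W₂ = U), bw p W₂ =
      p ^ (U.card - W₁.card) * (1 - p) ^ (Fintype.card X - U.card) := by
  have hs := Finset.sum_pow_mul_eq_add_pow p (1 - p) W₁
  have h1 : p + (1 - p) = 1 := by ring
  rw [h1, one_pow] at hs
  calc ∑ W₂ ∈ univ.filter (fun W₂ : Finset X => W₁ ∪ W₂ = U), bw p W₂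
      = ∑ T ∈ W₁.powerset, (p ^ (U.card - W₁.card) * (1 - p) ^ (Fintype.card X - U.card))
          * (p ^ T.card * (1 - p) ^ (W₁.card - T.card)) := by
        refine Finset.sum_nbij' (fun W₂ => W₂ ∩ W₁) (fun T => (U \ W₁) ∪ T) ?_ ?_ ?_ ?_ ?_
        · intro W₂ _
          exact Finset.mem_powerset.2 Finset.inter_subset_right
        · intro T hT
          rw [Finset.mem_powerset] at hT
          rw [Finset.mem_filter]
          refine ⟨Finset.mem_univ _, ?_⟩
          ext x
          simp only [Finset.mem_union, Finset.mem_sdiff]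
          have hx1 := @h x
          have hx2 := @hT x
          tauto
        · intro W₂ hW
          have hW' := (Finset.mem_filter.1 hW).2
          ext x
          have hx : x ∈ U ↔ (x ∈ W₁ ∨ x ∈ W₂) := by rw [← hW', Finset.mem_union]
          simp only [Finset.mem_union, Finset.mem_sdiff, Finset.mem_inter]
          tauto
        · intro T hT
          rw [Finset.mem_powerset] at hT
          ext x
          have hx2 := @hT x
          simp only [Finset.mem_union, Finset.mem_sdiff, Finset.mem_inter]
          tauto
        · intro W₂ hW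
          have hW' := (Finset.mem_filter.1 hW).2
          unfold bw
          have hc1 : W₂.card = (U.card - W₁.card) + (W₂ ∩ W₁).card := by
            have e1 : (W₂ \ W₁).card + (W₂ ∩ W₁).card = W₂.card :=
              Finset.card_sdiff_add_card_inter W₂ W₁
            have e2 : W₂ \ W₁ = U \ W₁ := by
              rw [← hW']
              ext x
              simp only [Finset.mem_union, Finset.mem_sdiff]
              tauto
            have e3 : (U \ W₁).card = U.card - W₁.card := Finset.card_sdiff_of_subset h
            rw [e2] at e1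
            omega
          have hc2 : Fintype.card X - W₂.card
              = (Fintype.card X - U.card) + (W₁.card - (W₂ ∩ W₁).card) := by
            have e1 : (W₂ ∩ W₁).card ≤ W₁.card := Finset.card_le_card Finset.inter_subset_right
            have e2 : W₁.card ≤ U.card := Finset.card_le_card h
            have e3 : U.card ≤ Fintype.card X := Finset.card_le_univ U
            omega
          rw [hc2]
          conv_lhs => rw [hc1]
          rw [pow_add, pow_add]
          ring
    _ = p ^ (U.card - W₁.card) * (1 - p) ^ (Fintype.card X - U.card) := by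
        rw [← Finset.mul_sum, hs, mul_one]

/-- T1. The union of two independent random subsets. -/
theorem sum_union {X : Type} [Fintype X] (p₁ p₂ : ℝ) (f : Finset X → ℝ) :
    ∑ W₁ : Finset X, bw p₁ W₁ * ∑ W₂ : Finset X, bw p₂ W₂ * f (W₁ ∪ W₂) =
      ∑ W : Finset X, bw (p₁ + p₂ - p₁ * p₂) W * f W := by
  have h1 : ∀ W₁ : Finset X, ∑ W₂ : Finset X, bw p₂ W₂ * f (W₁ ∪ W₂)
      = ∑ U : Finset X, (if W₁ ⊆ U then
        (p₂ ^ (U.card - W₁.card) * (1 - p₂) ^ (Fintype.card X - U.card)) * f U else 0) := by
    intro W₁
    rw [← Finset.sum_fiberwise Finset.univ (fun W₂ => W₁ ∪ W₂)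
      (fun W₂ => bw p₂ W₂ * f (W₁ ∪ W₂))]
    refine Finset.sum_congr rfl fun U _ => ?_
    split_ifs with h
    · rw [← sum_bw_fiber p₂ h, Finset.sum_mul]
      refine Finset.sum_congr rfl fun W₂ hW => ?_
      rw [(Finset.mem_filter.1 hW).2]
    · refine Finset.sum_eq_zero fun W₂ hW => ?_
      exfalso
      apply h
      rw [← (Finset.mem_filter.1 hW).2]
      exact Finset.subset_union_left
  simp only [h1, Finset.mul_sum]
  rw [Finset.sum_comm]
  refine Finset.sum_congr rfl fun U _ => ?_
  have h2 : ∀ W₁ : Finset X, bw p₁ W₁ * (if W₁ ⊆ U then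
        (p₂ ^ (U.card - W₁.card) * (1 - p₂) ^ (Fintype.card X - U.card)) * f U else 0)
      = if W₁ ⊆ U then (p₁ ^ W₁.card * ((1 - p₁) * p₂) ^ (U.card - W₁.card)) *
          (((1 - p₁) * (1 - p₂)) ^ (Fintype.card X - U.card) * f U) else 0 := by
    intro W₁
    split_ifs with h
    · unfold bw
      have e2 : W₁.card ≤ U.card := Finset.card_le_card h
      have e3 : U.card ≤ Fintype.card X := Finset.card_le_univ U
      have e4 : Fintype.card X - W₁.card = (U.card - W₁.card) + (Fintype.card X - U.card) := by
        omega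
      rw [e4, pow_add, mul_pow, mul_pow]
      ring
    · ring
  rw [Finset.sum_congr rfl fun W₁ _ => h2 W₁, ← Finset.sum_filter]
  have h3 : (Finset.univ.filter fun W₁ : Finset X => W₁ ⊆ U) = U.powerset := by
    ext W; simp
  rw [h3, ← Finset.sum_mul, Finset.sum_pow_mul_eq_add_pow]
  unfold bw
  have e1 : p₁ + (1 - p₁) * p₂ = p₁ + p₂ - p₁ * p₂ := by ring
  have e2 : (1 - p₁) * (1 - p₂) = 1 - (p₁ + p₂ - p₁ * p₂) := by ring
  rw [e1, e2]
  ring

/-- T1. Monotonicity in `p` of the probability of an increasing property. -/
theorem pr_mono {X : Type} [Fintype X] {p p' : ℝ} (h0 : 0 ≤ p) (h : p ≤ p') (h1 : p' ≤ 1)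
    (A : Finset X → Prop) (hA : ∀ S T : Finset X, S ⊆ T → A S → A T) : pr p A ≤ pr p' A := by
  rcases (h.trans h1).eq_or_lt with hp1 | hp1
  · have : p' = p := le_antisymm (by rw [hp1]; exact h1) h
    rw [this]
  · have h1p : 0 < 1 - p := sub_pos.2 hp1
    set r := (p' - p) / (1 - p) with hr
    have hr0 : 0 ≤ r := div_nonneg (sub_nonneg.2 h) h1p.le
    have hr1 : r ≤ 1 := by
      rw [hr, div_le_one h1p]; linarith
    have hp' : p + r - p * r = p' := by
      have : p + r - p * r = p + r * (1 - p) := by ring
      rw [this, hr, div_mul_cancel₀ _ h1p.ne']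
      ring
    have hpr : ∀ q : ℝ, pr q A = ∑ W : Finset X, bw q W * (if A W then 1 else 0) := by
      intro q
      unfold pr
      rw [Finset.sum_filter]
      refine Finset.sum_congr rfl fun W _ => ?_
      split_ifs <;> simp
    rw [hpr, hpr, ← hp', ← sum_union]
    refine Finset.sum_le_sum fun W₁ _ => ?_
    refine mul_le_mul_of_nonneg_left ?_ (bw_nonneg h0 (h.trans h1) _)
    have : (if A W₁ then (1 : ℝ) else 0) = ∑ W₂ : Finset X, bw r W₂ * (if A W₁ then 1 else 0) := by
      rw [← Finset.sum_mul, sum_bw, one_mul]
    rw [this]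
    refine Finset.sum_le_sum fun W₂ _ => ?_
    refine mul_le_mul_of_nonneg_left ?_ (bw_nonneg hr0 hr1 _)
    by_cases hW : A W₁
    · rw [if_pos hW, if_pos (hA _ _ Finset.subset_union_left hW)]
    · rw [if_neg hW]
      split_ifs <;> norm_num

/-- T1. The expected number of subsets. -/
theorem sum_bw_superset {X : Type} [Fintype X] (p : ℝ) (S : Finset X) :
    ∑ W ∈ univ.filter (fun W : Finset X => S ⊆ W), bw p W = p ^ S.card := by
  have hs := Finset.sum_pow_mul_eq_add_pow p (1 - p) (Sᶜ)
  have h1 : p + (1 - p) = 1 := by ring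
  rw [h1, one_pow] at hs
  calc ∑ W ∈ univ.filter (fun W : Finset X => S ⊆ W), bw p W
      = ∑ T ∈ (Sᶜ).powerset, p ^ S.card * (p ^ T.card * (1 - p) ^ ((Sᶜ).card - T.card)) := by
        refine Finset.sum_nbij' (fun W => W \ S) (fun T => S ∪ T) ?_ ?_ ?_ ?_ ?_
        · intro W _
          rw [Finset.mem_powerset]
          intro x hx
          simp only [Finset.mem_sdiff, Finset.mem_compl] at hx ⊢
          exact hx.2
        · intro T _
          exact Finset.mem_filter.2 ⟨Finset.mem_univ _, Finset.subset_union_left⟩
        · intro W hW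
          exact Finset.union_sdiff_of_subset (Finset.mem_filter.1 hW).2
        · intro T hT
          rw [Finset.mem_powerset] at hT
          ext x
          have hx2 := @hT x
          simp only [Finset.mem_compl] at hx2
          simp only [Finset.mem_union, Finset.mem_sdiff]
          tauto
        · intro W hW
          have hSW := (Finset.mem_filter.1 hW).2
          have e1 : (W \ S).card = W.card - S.card := Finset.card_sdiff_of_subset hSW
          have e2 : (Sᶜ).card = Fintype.card X - S.card := Finset.card_compl S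
          have e3 : S.card ≤ W.card := Finset.card_le_card hSW
          have e4 : W.card ≤ Fintype.card X := Finset.card_le_univ W
          unfold bw
          have c1 : W.card = S.card + (W \ S).card := by omega
          have c2 : Fintype.card X - W.card = (Sᶜ).card - (W \ S).card := by omega
          rw [c2]
          conv_lhs => rw [c1]
          rw [pow_add]
          ring
    _ = p ^ S.card := by rw [← Finset.mul_sum, hs, mul_one]

end T1

end Vale.Agent.H2.P064
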