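import Vale.Agent.H2.P064.T1

/-! The Park–Pham theorem (P064, row T2). -/

namespace Vale.Agent.H2.P064

open Finset Classical

set_option linter.unusedSectionVars false

section PP

variable {X : Type} [Fintype X]

/-- the minimum fragments -/
noncomputable def frag (H : Finset (Finset X)) (W : Finset X) : Finset (Finset X) :=
  univ.filter (fun T => ∃ S ∈ H, ∃ S1 ∈ H, S1 ⊆ W ∪ S ∧ T = S1 \ W ∧
    ∀ S2 ∈ H, S2 ⊆ W ∪ S → T.card ≤ (S2 \ W).card)

theorem frag_sub {H : Finset (Finset X)} {W T : Finset X} (hT : T ∈ frag H W) :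
    ∃ S1 ∈ H, T = S1 \ W := by
  obtain ⟨S, _, S1, hS1, _, h, _⟩ := (Finset.mem_filter.1 hT).2
  exact ⟨S1, hS1, h⟩

theorem exists_frag {H : Finset (Finset X)} (W : Finset X) {S : Finset X} (hS : S ∈ H) :
    ∃ T ∈ frag H W, T ⊆ S := by
  have hne : (H.filter fun S1 => S1 ⊆ W ∪ S).Nonempty :=
    ⟨S, Finset.mem_filter.2 ⟨hS, Finset.subset_union_right⟩⟩
  obtain ⟨S1, hS1, hmin⟩ := Finset.exists_min_image _ (fun S1 => (S1 \ W).card) hne
  rw [Finset.mem_filter] at hS1
  refine ⟨S1 \ W, Finset.mem_filter.2 ⟨Finset.mem_univ _, S, hS, S1, hS1.1, hS1.2, rfl, ?_⟩, ?_⟩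
  · intro S2 hS2 hsub
    exact hmin S2 (Finset.mem_filter.2 ⟨hS2, hsub⟩)
  · intro x hx
    rw [Finset.mem_sdiff] at hx
    have := hS1.2 hx.1
    rw [Finset.mem_union] at this
    tauto

/-- a member of `H` inside `Z` -/
noncomputable def shat (H : Finset (Finset X)) (Z : Finset X) : Finset X :=
  if h : ∃ S ∈ H, S ⊆ Z then h.choose else ∅

theorem frag_key {H : Finset (Finset X)} {W T : Finset X} (hT : T ∈ frag H W) :
    T ⊆ shat H (W ∪ T) := by
  obtain ⟨S, _, S1, hS1, hsub, hTS, hmin⟩ := (Finset.mem_filter.1 hT).2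
  have hex : ∃ S' ∈ H, S' ⊆ W ∪ T := by
    refine ⟨S1, hS1, ?_⟩
    intro x hx
    rw [Finset.mem_union, hTS, Finset.mem_sdiff]
    tauto
  have hsh : shat H (W ∪ T) = hex.choose := by
    unfold shat
    rw [dif_pos hex]
  have h1 := hex.choose_spec.1
  have h2 := hex.choose_spec.2
  rw [← hsh] at h1 h2
  have hTS' : T ⊆ S := by
    intro x hx
    rw [hTS, Finset.mem_sdiff] at hx
    have := hsub hx.1
    rw [Finset.mem_union] at this
    tauto
  have h3 : T.card ≤ (shat H (W ∪ T) \ W).card := by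
    apply hmin _ h1
    intro x hx
    have := h2 hx
    rw [Finset.mem_union] at this ⊢
    rcases this with h | h
    · exact Or.inl h
    · exact Or.inr (hTS' h)
  have h4 : shat H (W ∪ T) \ W ⊆ T := by
    intro x hx
    rw [Finset.mem_sdiff] at hx
    have := h2 hx.1
    rw [Finset.mem_union] at this
    tauto
  have h5 := Finset.eq_of_subset_of_card_le h4 h3
  intro x hx
  have hx' : x ∈ shat H (W ∪ T) \ W := by rw [h5]; exact hx
  exact (Finset.mem_sdiff.1 hx').1

theorem shat_card {H : Finset (Finset X)} {m : ℕ} (hH : ∀ S ∈ H, S.card ≤ m) (Z : Finset X) :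
    (shat H Z).card ≤ m := by
  unfold shat
  split_ifs with h
  · exact hH _ h.choose_spec.1
  · simp

theorem bw_union_ge {q : ℝ} (h0 : 0 ≤ q) (h1 : q ≤ 1) {W T : Finset X} (h : Disjoint W T) :
    bw q W * q ^ T.card ≤ bw q (W ∪ T) := by
  unfold bw
  rw [Finset.card_union_of_disjoint h, pow_add]
  have h2 : (1 - q) ^ (Fintype.card X - W.card) ≤ (1 - q) ^ (Fintype.card X - (W.card + T.card)) :=
    pow_le_pow_of_le_one (sub_nonneg.2 h1) (by linarith) (by omega)
  have h3 : 0 ≤ q ^ W.card * q ^ T.card := by positivity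
  calc q ^ W.card * (1 - q) ^ (Fintype.card X - W.card) * q ^ T.card
      = (q ^ W.card * q ^ T.card) * (1 - q) ^ (Fintype.card X - W.card) := by ring
    _ ≤ _ := mul_le_mul_of_nonneg_left h2 h3

theorem cost_lemma {p L : ℝ} (hL : 1 ≤ L) (hp : 0 < p) (hp1 : L * p ≤ 1)
    (H : Finset (Finset X)) (m : ℕ) (hH : ∀ S ∈ H, S.card ≤ 2 * m) :
    ∑ W, bw (L * p) W * ∑ T ∈ (frag H W).filter (fun T => m ≤ T.card), p ^ T.card
      ≤ (4 / L) ^ m := by
  have hL0 : 0 < L := by linarith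
  have hq0 : 0 ≤ L * p := by positivity
  set r : Finset (Finset X × Finset X) :=
    univ.filter (fun x => x.2 ∈ (frag H x.1).filter (fun T => m ≤ T.card)) with hr
  have e1 : ∑ W, bw (L * p) W * ∑ T ∈ (frag H W).filter (fun T => m ≤ T.card), p ^ T.card
      = ∑ x ∈ r, bw (L * p) x.1 * p ^ x.2.card := by
    rw [Finset.sum_finset_product r univ (fun W => (frag H W).filter (fun T => m ≤ T.card))]
    · refine Finset.sum_congr rfl fun W _ => ?_
      rw [Finset.mul_sum]
    · intro x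
      simp [hr]
  set r' : Finset (Finset X × Finset X) :=
    univ.filter (fun x => x.2 ∈ (shat H x.1).powerset) with hr'
  have e2 : ∑ x ∈ r, bw (L * p) x.1 * p ^ x.2.card
      ≤ ∑ x ∈ r, bw (L * p) (x.1 ∪ x.2) * (1 / L) ^ m := by
    refine Finset.sum_le_sum fun x hx => ?_
    have hx' := (Finset.mem_filter.1 hx).2
    rw [Finset.mem_filter] at hx'
    obtain ⟨S1, _, hTS⟩ := frag_sub hx'.1
    have hdis : Disjoint x.1 x.2 := by
      rw [hTS]; exact Finset.disjoint_sdiff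
    have h1 := bw_union_ge hq0 hp1 hdis
    have h2 : (1 / L) ^ x.2.card ≤ (1 / L) ^ m :=
      pow_le_pow_of_le_one (by positivity) (by rw [div_le_one hL0]; exact hL) hx'.2
    have h3 : p ^ x.2.card = (L * p) ^ x.2.card * (1 / L) ^ x.2.card := by
      rw [← mul_pow]
      congr 1
      field_simp
    rw [h3, ← mul_assoc]
    exact mul_le_mul h1 h2 (by positivity) (bw_nonneg hq0 hp1 _)
  have e3 : ∑ x ∈ r, bw (L * p) (x.1 ∪ x.2) * (1 / L) ^ m
      ≤ ∑ y ∈ r', bw (L * p) y.1 * (1 / L) ^ m := by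
    rw [← Finset.sum_image (f := fun y : Finset X × Finset X => bw (L * p) y.1 * (1 / L) ^ m)
      (g := fun x : Finset X × Finset X => (x.1 ∪ x.2, x.2))]
    · refine Finset.sum_le_sum_of_subset_of_nonneg ?_ ?_
      · intro y hy
        obtain ⟨x, hx, rfl⟩ := Finset.mem_image.1 hy
        have hx' := (Finset.mem_filter.1 hx).2
        rw [Finset.mem_filter] at hx'
        exact Finset.mem_filter.2 ⟨Finset.mem_univ _, Finset.mem_powerset.2 (frag_key hx'.1)⟩
      · intro y _ _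
        exact mul_nonneg (bw_nonneg hq0 hp1 _) (by positivity)
    · intro x hx y hy hxy
      have hx' := (Finset.mem_filter.1 (Finset.mem_coe.1 hx)).2
      have hy' := (Finset.mem_filter.1 (Finset.mem_coe.1 hy)).2
      rw [Finset.mem_filter] at hx' hy'
      obtain ⟨S1, _, hTS⟩ := frag_sub hx'.1
      obtain ⟨S2, _, hTS2⟩ := frag_sub hy'.1
      have hd1 : Disjoint x.1 x.2 := by rw [hTS]; exact Finset.disjoint_sdiff
      have hd2 : Disjoint y.1 y.2 := by rw [hTS2]; exact Finset.disjoint_sdiff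
      simp only [Prod.mk.injEq] at hxy
      have h1 : x.1 = (x.1 ∪ x.2) \ x.2 := (Finset.union_sdiff_cancel_right hd1).symm
      have h2 : y.1 = (y.1 ∪ y.2) \ y.2 := (Finset.union_sdiff_cancel_right hd2).symm
      refine Prod.ext ?_ hxy.2
      rw [h1, h2, hxy.1, hxy.2]
  have e4 : ∑ y ∈ r', bw (L * p) y.1 * (1 / L) ^ m ≤ (4 / L) ^ m := by
    rw [Finset.sum_finset_product r' univ (fun Z => (shat H Z).powerset)]
    · have : ∀ Z : Finset X, ∑ T ∈ (shat H Z).powerset, bw (L * p) (Z, T).1 * (1 / L) ^ m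
          ≤ bw (L * p) Z * (4 / L) ^ m := by
        intro Z
        show ∑ T ∈ (shat H Z).powerset, bw (L * p) Z * (1 / L) ^ m ≤ _
        rw [Finset.sum_const, Finset.card_powerset, nsmul_eq_mul]
        have h1 : ((2 ^ (shat H Z).card : ℕ) : ℝ) ≤ 4 ^ m := by
          push_cast
          calc (2 : ℝ) ^ (shat H Z).card ≤ 2 ^ (2 * m) :=
                pow_le_pow_right₀ (by norm_num) (shat_card hH Z)
            _ = 4 ^ m := by rw [pow_mul]; norm_num
        have h2 := bw_nonneg hq0 hp1 Z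
        have h3 : (4 / L) ^ m = 4 ^ m * (1 / L) ^ m := by
          rw [← mul_pow]; congr 1; ring
        rw [h3]
        have h4 : 0 ≤ bw (L * p) Z * (1 / L) ^ m := by positivity
        calc ((2 ^ (shat H Z).card : ℕ) : ℝ) * (bw (L * p) Z * (1 / L) ^ m)
            ≤ 4 ^ m * (bw (L * p) Z * (1 / L) ^ m) := mul_le_mul_of_nonneg_right h1 h4
          _ = _ := by ring
      calc ∑ Z, ∑ T ∈ (shat H Z).powerset, bw (L * p) (Z, T).1 * (1 / L) ^ m
          ≤ ∑ Z, bw (L * p) Z * (4 / L) ^ m := Finset.sum_le_sum fun Z _ => this Z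
        _ = (4 / L) ^ m := by rw [← Finset.sum_mul, sum_bw, one_mul]
    · intro x
      simp [hr']
  rw [e1]
  exact e2.trans (e3.trans e4)

/-- indicator of failure -/
noncomputable def fl (H : Finset (Finset X)) (W : Finset X) : ℝ :=
  if ∃ S ∈ H, S ⊆ W then 0 else 1

theorem fl_nonneg (H : Finset (Finset X)) (W : Finset X) : 0 ≤ fl H W := by
  unfold fl; split_ifs <;> norm_num

theorem fl_le_one (H : Finset (Finset X)) (W : Finset X) : fl H W ≤ 1 := by
  unfold fl; split_ifs <;> norm_num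

/-- the density of the union of `k` sets of density `q` -/
noncomputable def qk (q : ℝ) : ℕ → ℝ
  | 0 => 0
  | k + 1 => q + qk q k - q * qk q k

theorem qk_bd {q : ℝ} (h0 : 0 ≤ q) (h1 : q ≤ 1) (k : ℕ) :
    0 ≤ qk q k ∧ qk q k ≤ 1 ∧ qk q k ≤ k * q := by
  induction k with
  | zero => simp [qk]
  | succ k ih =>
    obtain ⟨i1, i2, i3⟩ := ih
    have h2 := mul_nonneg h0 i1
    refine ⟨?_, ?_, ?_⟩
    · show 0 ≤ q + qk q k - q * qk q k
      nlinarith
    · show q + qk q k - q * qk q k ≤ 1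
      nlinarith
    · show q + qk q k - q * qk q k ≤ ((k + 1 : ℕ) : ℝ) * q
      push_cast
      nlinarith

theorem main_claim {p L : ℝ} (hL : 1 ≤ L) (hp : 0 < p) (hp1 : L * p ≤ 1) (k : ℕ) :
    ∀ (H : Finset (Finset X)), (∀ S ∈ H, S.card < 2 ^ k) → ∀ c : ℝ,
      (∀ 𝓖 : Finset (Finset X), (∀ S ∈ H, ∃ T ∈ 𝓖, T ⊆ S) → c ≤ ∑ T ∈ 𝓖, p ^ T.card) →
      c * ∑ W, bw (qk (L * p) k) W * fl H W ≤ ∑ i ∈ range k, (4 / L) ^ (2 ^ i) := by
  have hL0 : 0 < L := by linarith
  have hq0 : 0 ≤ L * p := by positivity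
  induction k with
  | zero =>
    intro H hH c hc
    rw [Finset.range_zero, Finset.sum_empty]
    rcases H.eq_empty_or_nonempty with h | ⟨S, hS⟩
    · have h1 : c ≤ 0 := by
        have := hc ∅ (by rw [h]; simp)
        simpa using this
      have h2 : 0 ≤ ∑ W : Finset X, bw (qk (L * p) 0) W * fl H W := by
        refine Finset.sum_nonneg fun W _ => ?_
        refine mul_nonneg (bw_nonneg ?_ ?_ _) (fl_nonneg _ _)
        · exact le_rfl
        · show (0 : ℝ) ≤ 1
          norm_num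
      exact mul_nonpos_of_nonpos_of_nonneg h1 h2
    · have hS0 : S = ∅ := by
        have := hH S hS
        rw [pow_zero, Nat.lt_one_iff, Finset.card_eq_zero] at this
        exact this
      have h2 : ∑ W : Finset X, bw (qk (L * p) 0) W * fl H W = 0 := by
        refine Finset.sum_eq_zero fun W _ => ?_
        have : fl H W = 0 := by
          unfold fl
          rw [if_pos ⟨S, hS, by rw [hS0]; exact Finset.empty_subset _⟩]
        rw [this, mul_zero]
      rw [h2, mul_zero]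
  | succ k ih =>
    intro H hH c hc
    have hE : ∀ k, 0 ≤ ∑ i ∈ range k, (4 / L) ^ (2 ^ i) := fun k =>
      Finset.sum_nonneg fun i _ => by positivity
    obtain ⟨b1, b2, -⟩ := qk_bd hq0 hp1 k
    obtain ⟨b1', b2', -⟩ := qk_bd hq0 hp1 (k + 1)
    rcases le_total c 0 with hc0 | hc0
    · refine (mul_nonpos_of_nonpos_of_nonneg hc0 ?_).trans (hE _)
      exact Finset.sum_nonneg fun W _ => mul_nonneg (bw_nonneg b1' b2' _) (fl_nonneg _ _)
    · have hsu := sum_union (L * p) (qk (L * p) k) (fl H)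
      have hsu' : ∑ W, bw (qk (L * p) (k + 1)) W * fl H W
          = ∑ W₁ : Finset X, bw (L * p) W₁ *
            ∑ W₂ : Finset X, bw (qk (L * p) k) W₂ * fl H (W₁ ∪ W₂) := hsu.symm
      rw [hsu', Finset.mul_sum]
      have hcl := cost_lemma hL hp hp1 H (2 ^ k) (fun S hS => by
        have := hH S hS
        rw [pow_succ] at this
        omega)
      have hper : ∀ W₁ : Finset X, c * ∑ W₂ : Finset X, bw (qk (L * p) k) W₂ * fl H (W₁ ∪ W₂)
          ≤ ∑ i ∈ range k, (4 / L) ^ (2 ^ i)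
            + ∑ T ∈ (frag H W₁).filter (fun T => 2 ^ k ≤ T.card), p ^ T.card := by
        intro W₁
        set H1 := (frag H W₁).filter (fun T => T.card < 2 ^ k) with hH1
        set g := ∑ T ∈ (frag H W₁).filter (fun T => 2 ^ k ≤ T.card), p ^ T.card with hg
        have hg0 : 0 ≤ g := Finset.sum_nonneg fun T _ => by positivity
        have hF1 : ∑ W₂ : Finset X, bw (qk (L * p) k) W₂ * fl H (W₁ ∪ W₂)
            ≤ ∑ W₂ : Finset X, bw (qk (L * p) k) W₂ * fl H1 W₂ := by
          refine Finset.sum_le_sum fun W₂ _ => ?_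
          refine mul_le_mul_of_nonneg_left ?_ (bw_nonneg b1 b2 _)
          unfold fl
          split_ifs with h h'
          · exact le_rfl
          · norm_num
          · exfalso
            apply h
            rename_i h'
            obtain ⟨T, hT, hTW⟩ := h'
            obtain ⟨S1, hS1, hTS⟩ := frag_sub (Finset.mem_filter.1 hT).1
            refine ⟨S1, hS1, ?_⟩
            intro x hx
            rw [Finset.mem_union]
            by_cases hx1 : x ∈ W₁
            · exact Or.inl hx1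
            · refine Or.inr (hTW ?_)
              rw [hTS, Finset.mem_sdiff]
              exact ⟨hx, hx1⟩
          · exact le_rfl
        have hF2 : ∑ W₂ : Finset X, bw (qk (L * p) k) W₂ * fl H1 W₂ ≤ 1 := by
          rw [← sum_bw (X := X) (qk (L * p) k)]
          refine Finset.sum_le_sum fun W₂ _ => ?_
          have := mul_le_mul_of_nonneg_left (fl_le_one H1 W₂) (bw_nonneg b1 b2 W₂)
          simpa using this
        have hF0 : 0 ≤ ∑ W₂ : Finset X, bw (qk (L * p) k) W₂ * fl H1 W₂ :=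
          Finset.sum_nonneg fun W _ => mul_nonneg (bw_nonneg b1 b2 _) (fl_nonneg _ _)
        have hih := ih H1 (fun S hS => (Finset.mem_filter.1 hS).2) (c - g) (by
          intro 𝓖 h𝓖
          have h1 := hc (𝓖 ∪ (frag H W₁).filter (fun T => 2 ^ k ≤ T.card)) (by
            intro S hS
            obtain ⟨T, hT, hTS⟩ := exists_frag W₁ hS
            rcases lt_or_ge T.card (2 ^ k) with hlt | hge
            · obtain ⟨T', hT', hTT⟩ := h𝓖 T (Finset.mem_filter.2 ⟨hT, hlt⟩)
              exact ⟨T', Finset.mem_union_left _ hT', hTT.trans hTS⟩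
            · exact ⟨T, Finset.mem_union_right _ (Finset.mem_filter.2 ⟨hT, hge⟩), hTS⟩)
          have h2 : ∑ T ∈ 𝓖 ∪ (frag H W₁).filter (fun T => 2 ^ k ≤ T.card), p ^ T.card
              ≤ ∑ T ∈ 𝓖, p ^ T.card + g := by
            rw [hg, ← Finset.sum_union_inter]
            have : 0 ≤ ∑ T ∈ 𝓖 ∩ (frag H W₁).filter (fun T => 2 ^ k ≤ T.card), p ^ T.card :=
              Finset.sum_nonneg fun T _ => by positivity
            linarith
          linarith)
        calc c * ∑ W₂ : Finset X, bw (qk (L * p) k) W₂ * fl H (W₁ ∪ W₂)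
            ≤ c * ∑ W₂ : Finset X, bw (qk (L * p) k) W₂ * fl H1 W₂ :=
              mul_le_mul_of_nonneg_left hF1 hc0
          _ = (c - g) * ∑ W₂ : Finset X, bw (qk (L * p) k) W₂ * fl H1 W₂
                + g * ∑ W₂ : Finset X, bw (qk (L * p) k) W₂ * fl H1 W₂ := by ring
          _ ≤ ∑ i ∈ range k, (4 / L) ^ (2 ^ i) + g := by
              have := mul_le_mul_of_nonneg_left hF2 hg0
              linarith
      calc ∑ W₁ : Finset X, c * (bw (L * p) W₁ *
            ∑ W₂ : Finset X, bw (qk (L * p) k) W₂ * fl H (W₁ ∪ W₂))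
          = ∑ W₁ : Finset X, bw (L * p) W₁ *
            (c * ∑ W₂ : Finset X, bw (qk (L * p) k) W₂ * fl H (W₁ ∪ W₂)) :=
            Finset.sum_congr rfl fun W₁ _ => by ring
        _ ≤ ∑ W₁ : Finset X, bw (L * p) W₁ * (∑ i ∈ range k, (4 / L) ^ (2 ^ i)
            + ∑ T ∈ (frag H W₁).filter (fun T => 2 ^ k ≤ T.card), p ^ T.card) :=
            Finset.sum_le_sum fun W₁ _ =>
              mul_le_mul_of_nonneg_left (hper W₁) (bw_nonneg hq0 hp1 _)
        _ = ∑ i ∈ range k, (4 / L) ^ (2 ^ i) + ∑ W₁ : Finset X, bw (L * p) W₁ *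
            ∑ T ∈ (frag H W₁).filter (fun T => 2 ^ k ≤ T.card), p ^ T.card := by
            simp only [mul_add]
            rw [Finset.sum_add_distrib, ← Finset.sum_mul, sum_bw, one_mul]
        _ ≤ ∑ i ∈ range (k + 1), (4 / L) ^ (2 ^ i) := by
            rw [Finset.sum_range_succ]
            linarith

end PP

theorem geom_le (k : ℕ) : ∑ i ∈ range k, ((4 : ℝ) / 64) ^ (2 ^ i) ≤ 1 / 15 := by
  have h1 : ∀ k : ℕ, ∑ i ∈ range k, ((1 : ℝ) / 16) ^ (i + 1) = (1 - (1 / 16) ^ k) / 15 := by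
    intro k
    induction k with
    | zero => simp
    | succ k ih =>
      rw [Finset.sum_range_succ, ih, pow_succ]
      ring
  calc ∑ i ∈ range k, ((4 : ℝ) / 64) ^ (2 ^ i) ≤ ∑ i ∈ range k, ((1 : ℝ) / 16) ^ (i + 1) := by
        refine Finset.sum_le_sum fun i _ => ?_
        have : (4 : ℝ) / 64 = 1 / 16 := by norm_num
        rw [this]
        exact pow_le_pow_of_le_one (by norm_num) (by norm_num) (Nat.lt_two_pow_self)
    _ ≤ 1 / 15 := by
        rw [h1]
        have : (0 : ℝ) ≤ (1 / 16) ^ k := by positivity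
        linarith

/-- T2. The Park–Pham theorem. -/
theorem park_pham : ∃ K : ℝ, 0 < K ∧ ∀ (X : Type) [Fintype X] (𝓗 : Finset (Finset X)) (ℓ : ℕ)
    (p : ℝ), 2 ≤ ℓ → (∀ S ∈ 𝓗, S.card ≤ ℓ) → 0 < p → K * p * Real.log ℓ ≤ 1 →
    (∀ 𝓖 : Finset (Finset X), (∀ S ∈ 𝓗, ∃ T ∈ 𝓖, T ⊆ S) → 1 / 2 < ∑ T ∈ 𝓖, p ^ T.card) →
    1 / 2 ≤ pr (K * p * Real.log ℓ) (fun W => ∃ S ∈ 𝓗, S ⊆ W) := by
  refine ⟨192, by norm_num, ?_⟩
  intro X _ 𝓗 ℓ p hℓ hcard hp hK hcov
  set k := Nat.log 2 ℓ + 1 with hk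
  have hlk : ℓ < 2 ^ k := Nat.lt_pow_succ_log_self (by norm_num) ℓ
  have hkl : (k : ℝ) ≤ 3 * Real.log ℓ := by
    have h1 : (2 : ℝ) ^ (Nat.log 2 ℓ) ≤ ℓ := by
      exact_mod_cast Nat.pow_log_le_self 2 (by omega)
    have h2 : (Nat.log 2 ℓ : ℝ) * Real.log 2 ≤ Real.log ℓ := by
      rw [← Real.log_pow]
      exact Real.log_le_log (by positivity) h1
    have h3 : (1 : ℝ) ≤ Nat.log 2 ℓ := by
      have : 1 ≤ Nat.log 2 ℓ := Nat.log_pos (by norm_num) hℓ
      exact_mod_cast this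
    have h4 : (0.69 : ℝ) < Real.log 2 := by
      have := Real.log_two_gt_d9
      linarith
    rw [hk]
    push_cast
    nlinarith
  have hk1 : (1 : ℝ) ≤ k := by
    rw [hk]; push_cast
    have : (0 : ℝ) ≤ Nat.log 2 ℓ := Nat.cast_nonneg _
    linarith
  have hlog : 0 ≤ Real.log ℓ := by
    have := hk1.trans hkl
    linarith
  have hkp : (k : ℝ) * (64 * p) ≤ 192 * p * Real.log ℓ := by nlinarith
  have hp1 : 64 * p ≤ 1 := by nlinarith
  obtain ⟨b1, b2, b3⟩ := qk_bd (q := 64 * p) (by positivity) hp1 k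
  have hmain := main_claim (L := 64) (by norm_num) hp hp1 k 𝓗
    (fun S hS => (hcard S hS).trans_lt hlk) (1 / 2) (fun 𝓖 h => (hcov 𝓖 h).le)
  have hgeo := geom_le k
  have hfail : pr (qk (64 * p) k) (fun W => ∃ S ∈ 𝓗, S ⊆ W)
      = 1 - ∑ W, bw (qk (64 * p) k) W * fl 𝓗 W := by
    rw [eq_sub_iff_add_eq, ← sum_bw (X := X) (qk (64 * p) k)]
    unfold pr
    rw [Finset.sum_filter, ← Finset.sum_add_distrib]
    refine Finset.sum_congr rfl fun W _ => ?_
    unfold fl
    split_ifs <;> ring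
  have hpr : 1 / 2 ≤ pr (qk (64 * p) k) (fun W => ∃ S ∈ 𝓗, S ⊆ W) := by
    rw [hfail]
    linarith
  refine hpr.trans (pr_mono b1 (b3.trans hkp) hK _ ?_)
  rintro S T hST ⟨S', hS', hsub⟩
  exact ⟨S', hS', hsub.trans hST⟩

end Vale.Agent.H2.P064
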