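import Vale.Agent.H2.P064.T1

/-! Graph translation (T3, T4) for P064. -/

namespace Vale.Agent.H2.P064

open Finset Classical

/-- `s(x, y)` is (the underlying pair of) a member of `S`. -/
def inS {n : ℕ} (S : Finset (EX n)) (x y : Fin n) : Prop := ∃ e ∈ S, e.1 = s(x, y)

theorem inS_symm {n : ℕ} {S : Finset (EX n)} {x y : Fin n} (h : inS S x y) : inS S y x := by
  obtain ⟨e, he, h⟩ := h
  exact ⟨e, he, by rw [h, Sym2.eq_swap]⟩

theorem inS_ne {n : ℕ} {S : Finset (EX n)} {x y : Fin n} (h : inS S x y) : x ≠ y := by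
  obtain ⟨e, he, h⟩ := h
  rintro rfl
  apply e.2
  rw [h]
  simp

theorem inS_mono {n : ℕ} {S T : Finset (EX n)} (hST : S ⊆ T) {x y : Fin n} (h : inS S x y) :
    inS T x y := by
  obtain ⟨e, he, h⟩ := h
  exact ⟨e, hST he, h⟩

theorem inS_iff {n : ℕ} {S : Finset (EX n)} (e : EX n) {x y : Fin n} (h : e.1 = s(x, y)) :
    inS S x y ↔ e ∈ S := by
  constructor
  · rintro ⟨e', he', h'⟩
    have : e' = e := Subtype.ext (h'.trans h.symm)
    rwa [← this]
  · intro he
    exact ⟨e, he, h⟩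

theorem subset_of_inS {n : ℕ} {S T : Finset (EX n)} (h : ∀ x y, inS S x y → inS T x y) :
    S ⊆ T := by
  intro e he
  obtain ⟨x, y, hxy⟩ : ∃ x y, e.1 = s(x, y) := by
    induction e.1 using Sym2.ind with
    | _ x y => exact ⟨x, y, rfl⟩
  exact (inS_iff e hxy).mp (h x y ((inS_iff e hxy).mpr he))

theorem ext_of_inS {n : ℕ} {S T : Finset (EX n)} (h : ∀ x y, inS S x y ↔ inS T x y) :
    S = T :=
  Finset.Subset.antisymm (subset_of_inS fun x y => (h x y).mp)
    (subset_of_inS fun x y => (h x y).mpr)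

theorem act_val {n : ℕ} (g : Equiv.Perm (Fin n)) (e : EX n) :
    ((act n g) e).1 = Sym2.map g e.1 := rfl

theorem inS_im {n : ℕ} (g : Equiv.Perm (Fin n)) {S : Finset (EX n)} {x y : Fin n} :
    inS (im (act n) g S) (g x) (g y) ↔ inS S x y := by
  unfold im inS
  constructor
  · rintro ⟨e, he, h⟩
    rw [mem_map] at he
    obtain ⟨e', he', rfl⟩ := he
    refine ⟨e', he', ?_⟩
    have h2 : Sym2.map g e'.1 = Sym2.map g s(x, y) := by
      rw [Sym2.map_mk]
      exact h
    exact Sym2.map.injective g.injective h2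
  · rintro ⟨e, he, h⟩
    refine ⟨(act n g) e, mem_map_of_mem _ he, ?_⟩
    rw [act_val, h, Sym2.map_mk]

theorem inS_im' {n : ℕ} (g : Equiv.Perm (Fin n)) {S : Finset (EX n)} {x y : Fin n} :
    inS (im (act n) g S) x y ↔ inS S (g.symm x) (g.symm y) := by
  have := inS_im g (S := S) (x := g.symm x) (y := g.symm y)
  rwa [Equiv.apply_symm_apply, Equiv.apply_symm_apply] at this

theorem inS_edg {n : ℕ} {V : Type} (ι : V ↪ Fin n) (H : SimpleGraph V) {x y : Fin n} :
    inS (edg ι H) x y ↔ ∃ v w, H.Adj v w ∧ x = ι v ∧ y = ι w := by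
  unfold inS edg
  constructor
  · rintro ⟨e, he, h⟩
    rw [mem_filter] at he
    obtain ⟨v, w, hvw, hh⟩ := he.2
    rw [h] at hh
    rcases Sym2.eq_iff.mp hh with ⟨h1, h2⟩ | ⟨h1, h2⟩
    · exact ⟨v, w, hvw, h1, h2⟩
    · exact ⟨w, v, hvw.symm, h1, h2⟩
  · rintro ⟨v, w, hvw, rfl, rfl⟩
    refine ⟨⟨s(ι v, ι w), ?_⟩, ?_, rfl⟩
    · simpa using hvw.ne
    · rw [mem_filter]
      exact ⟨mem_univ _, v, w, hvw, rfl⟩

/-- The graph with edge set `W`. -/
def gr {n : ℕ} (W : Finset (EX n)) : SimpleGraph (Fin n) where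
  Adj x y := inS W x y
  symm := ⟨fun _ _ h => inS_symm h⟩
  loopless := ⟨fun _ h => inS_ne h rfl⟩

/-- The edge set of a graph. -/
noncomputable def es {n : ℕ} (G : SimpleGraph (Fin n)) : Finset (EX n) :=
  univ.filter (fun e => e.1 ∈ G.edgeSet)

theorem inS_es {n : ℕ} (G : SimpleGraph (Fin n)) (x y : Fin n) : inS (es G) x y ↔ G.Adj x y := by
  unfold es
  constructor
  · rintro ⟨e, he, h⟩
    rw [mem_filter, h] at he
    exact he.2
  · intro h
    refine ⟨⟨s(x, y), ?_⟩, ?_, rfl⟩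
    · simpa using h.ne
    · rw [mem_filter]
      exact ⟨mem_univ _, h⟩

/-- Graphs on `Fin n` are the same as sets of potential edges. -/
noncomputable def eqv (n : ℕ) : Finset (EX n) ≃ SimpleGraph (Fin n) where
  toFun := gr
  invFun := es
  left_inv := by
    intro W
    apply ext_of_inS
    intro x y
    rw [inS_es]
    rfl
  right_inv := by
    intro G
    ext x y
    exact inS_es G x y

theorem edgeFinset_gr {n : ℕ} (W : Finset (EX n)) :
    (gr W).edgeFinset = W.map (Function.Embedding.subtype _) := by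
  ext e
  rw [SimpleGraph.mem_edgeFinset, mem_map]
  constructor
  · intro h
    induction e using Sym2.ind with
    | _ x y =>
      rw [SimpleGraph.mem_edgeSet] at h
      obtain ⟨e, he, h⟩ := h
      exact ⟨e, he, h⟩
  · rintro ⟨e', he', rfl⟩
    obtain ⟨x, y, hxy⟩ : ∃ x y, e'.1 = s(x, y) := by
      induction e'.1 using Sym2.ind with
      | _ x y => exact ⟨x, y, rfl⟩
    rw [Function.Embedding.subtype_apply, hxy, SimpleGraph.mem_edgeSet]
    exact ⟨e', he', hxy⟩

theorem card_EX (n : ℕ) : Fintype.card (EX n) = n.choose 2 := by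
  have := Sym2.card_subtype_not_diag (α := Fin n)
  rw [Fintype.card_fin] at this
  rw [← this]

theorem gw_gr {n : ℕ} (p : ℝ) (W : Finset (EX n)) : gw n p (gr W) = bw p W := by
  unfold gw bw
  rw [card_EX]
  have h : (gr W).edgeFinset.card = W.card := by
    rw [edgeFinset_gr, card_map]
  rw [← h]

theorem sum_gw {n : ℕ} (p : ℝ) (f : SimpleGraph (Fin n) → ℝ) :
    ∑ G : SimpleGraph (Fin n), gw n p G * f G = ∑ W : Finset (EX n), bw p W * f (gr W) := by
  rw [← Equiv.sum_comp (eqv n)]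
  apply sum_congr rfl
  intro W _
  have : (eqv n) W = gr W := rfl
  rw [this, gw_gr]

/-- T4. -/
theorem isContained_gr_iff {n : ℕ} {V : Type} (ι : V ↪ Fin n) (H : SimpleGraph V)
    (W : Finset (EX n)) : H.IsContained (gr W) ↔ ∃ g, im (act n) g (edg ι H) ⊆ W := by
  constructor
  · rintro ⟨f⟩
    let e : {x // x ∈ Set.range ι} ≃ {x // x ∈ Set.range f} :=
      (Equiv.ofInjective ι ι.injective).symm.trans (Equiv.ofInjective f f.injective)
    have hg : ∀ v, e.extendSubtype (ι v) = f v := by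
      intro v
      rw [Equiv.extendSubtype_apply_of_mem e (ι v) ⟨v, rfl⟩]
      have : e ⟨ι v, ⟨v, rfl⟩⟩ = ⟨f v, ⟨v, rfl⟩⟩ := by
        show (Equiv.ofInjective f f.injective) ((Equiv.ofInjective ι ι.injective).symm
          ⟨ι v, ⟨v, rfl⟩⟩) = _
        rw [Equiv.ofInjective_symm_apply]
        rfl
      rw [this]
    refine ⟨e.extendSubtype, ?_⟩
    apply subset_of_inS
    intro x y hxy
    rw [inS_im', inS_edg] at hxy
    obtain ⟨v, w, hvw, h1, h2⟩ := hxy
    have h3 : x = f v := by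
      rw [← hg v, ← h1, Equiv.apply_symm_apply]
    have h4 : y = f w := by
      rw [← hg w, ← h2, Equiv.apply_symm_apply]
    rw [h3, h4]
    exact f.toHom.map_adj hvw
  · rintro ⟨g, hg⟩
    refine ⟨⟨⟨fun v => g (ι v), ?_⟩, ?_⟩⟩
    · intro v w hvw
      show inS W (g (ι v)) (g (ι w))
      apply inS_mono hg
      rw [inS_im, inS_edg]
      exact ⟨v, w, hvw, rfl, rfl⟩
    · intro v w hvw
      exact ι.injective (g.injective hvw)

theorem gprob_eq {n : ℕ} {V : Type} (ι : V ↪ Fin n) (H : SimpleGraph V) (p : ℝ) :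
    gprob n p (fun G => 0 < G.copyCount H) =
      pr p (fun W : Finset (EX n) => ∃ g, im (act n) g (edg ι H) ⊆ W) := by
  unfold gprob pr
  rw [sum_filter, sum_filter]
  trans ∑ G : SimpleGraph (Fin n), gw n p G * (if 0 < G.copyCount H then 1 else 0)
  · apply sum_congr rfl
    intro G _
    split_ifs <;> simp
  rw [sum_gw]
  apply sum_congr rfl
  intro W _
  have h2 : 0 < (gr W).copyCount H ↔ ∃ g, im (act n) g (edg ι H) ⊆ W := by
    rw [SimpleGraph.copyCount_pos, isContained_gr_iff ι H W]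
  by_cases h : ∃ g, im (act n) g (edg ι H) ⊆ W
  · rw [if_pos h, if_pos (h2.mpr h), mul_one]
  · rw [if_neg h, if_neg (fun hc => h (h2.mp hc)), mul_zero]

/-- The subgraph of `H` with edge set `U`, without isolated vertices. -/
def sub {n : ℕ} {V : Type} (ι : V ↪ Fin n) (H : SimpleGraph V) (U : Finset (EX n))
    (hU : U ⊆ edg ι H) : H.Subgraph where
  verts := {x | ∃ y, inS U (ι x) (ι y)}
  Adj x y := inS U (ι x) (ι y)
  adj_sub := by
    intro x y h
    have h2 := inS_mono hU h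
    rw [inS_edg] at h2
    obtain ⟨v, w, hvw, h3, h4⟩ := h2
    rw [ι.injective h3, ι.injective h4]
    exact hvw
  edge_vert := by
    intro x y h
    exact ⟨y, h⟩
  symm := ⟨fun _ _ h => inS_symm h⟩

/-- The subgraph of `gr W` with edge set `S`, without isolated vertices. -/
def sub2 {n : ℕ} (W S : Finset (EX n)) (hS : S ⊆ W) : (gr W).Subgraph where
  verts := {x | ∃ y, inS S x y}
  Adj x y := inS S x y
  adj_sub := by
    intro x y h
    exact inS_mono hS h
  edge_vert := by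
    intro x y h
    exact ⟨y, h⟩
  symm := ⟨fun _ _ h => inS_symm h⟩

/-- The edge set of a subgraph. -/
noncomputable def se {n : ℕ} {W : Finset (EX n)} (G' : (gr W).Subgraph) : Finset (EX n) :=
  univ.filter (fun e => e.1 ∈ G'.edgeSet)

theorem inS_se {n : ℕ} {W : Finset (EX n)} (G' : (gr W).Subgraph) (x y : Fin n) :
    inS (se G') x y ↔ G'.Adj x y := by
  unfold se
  constructor
  · rintro ⟨e, he, h⟩
    rw [mem_filter, h] at he
    exact he.2
  · intro h
    refine ⟨⟨s(x, y), ?_⟩, ?_, rfl⟩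
    · simpa using h.ne
    · rw [mem_filter]
      exact ⟨mem_univ _, h⟩

section NN
variable {X G : Type} [Fintype X] [Group G] [Fintype G] (a : G →* Equiv.Perm X)

/-- The set of copies of `F` inside `A`. -/
noncomputable def NS (A F : Finset X) : Finset (Finset X) :=
  A.powerset.filter (fun S => ∃ g : G, im a g F = S)

theorem N_eq_NS (A F : Finset X) : N a A F = (NS a A F).card := rfl

theorem mem_NS (A F S : Finset X) : S ∈ NS a A F ↔ S ⊆ A ∧ ∃ g : G, im a g F = S := by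
  unfold NS
  rw [mem_filter, mem_powerset]

end NN

theorem sub_verts_of_iso {n : ℕ} {V : Type} (ι : V ↪ Fin n) (H : SimpleGraph V)
    (U : Finset (EX n)) (hU : U ⊆ edg ι H) {W : Finset (EX n)} (G' : (gr W).Subgraph)
    (φ : (sub ι H U hU).coe ≃g G'.coe) (x : Fin n) : x ∈ G'.verts ↔ ∃ y, G'.Adj x y := by
  constructor
  · intro hx
    obtain ⟨y, hy⟩ := (φ.symm ⟨x, hx⟩).2
    have hyv : y ∈ (sub ι H U hU).verts := ⟨(φ.symm ⟨x, hx⟩).1, inS_symm hy⟩
    have h3 : (sub ι H U hU).coe.Adj (φ.symm ⟨x, hx⟩) ⟨y, hyv⟩ := hy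
    have h4 := φ.map_adj_iff.mpr h3
    have h5 : φ (φ.symm ⟨x, hx⟩) = ⟨x, hx⟩ := φ.toEquiv.apply_symm_apply _
    rw [h5] at h4
    exact ⟨_, h4⟩
  · rintro ⟨y, hy⟩
    exact G'.edge_vert hy

theorem exists_perm {n : ℕ} {V : Type} (ι : V ↪ Fin n) (H : SimpleGraph V)
    (U : Finset (EX n)) (hU : U ⊆ edg ι H) {W : Finset (EX n)} (G' : (gr W).Subgraph)
    (φ : (sub ι H U hU).coe ≃g G'.coe) : ∃ g, im (act n) g U = se G' := by
  let f : (sub ι H U hU).verts → Fin n := fun x => ι x.1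
  have hf : Function.Injective f := fun x y h => Subtype.ext (ι.injective h)
  let f' : (sub ι H U hU).verts → Fin n := fun x => (φ x).1
  have hf' : Function.Injective f' := fun x y h => φ.injective (Subtype.ext h)
  let e : {x // x ∈ Set.range f} ≃ {x // x ∈ Set.range f'} :=
    (Equiv.ofInjective f hf).symm.trans (Equiv.ofInjective f' hf')
  have hg : ∀ v, e.extendSubtype (f v) = f' v := by
    intro v
    rw [Equiv.extendSubtype_apply_of_mem e (f v) ⟨v, rfl⟩]
    have : e ⟨f v, ⟨v, rfl⟩⟩ = ⟨f' v, ⟨v, rfl⟩⟩ := by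
      show (Equiv.ofInjective f' hf') ((Equiv.ofInjective f hf).symm ⟨f v, ⟨v, rfl⟩⟩) = _
      rw [Equiv.ofInjective_symm_apply]
      rfl
    rw [this]
  refine ⟨e.extendSubtype, ?_⟩
  apply ext_of_inS
  intro a b
  rw [inS_im', inS_se]
  constructor
  · intro h
    have h2 := inS_mono hU h
    rw [inS_edg] at h2
    obtain ⟨v, w, hvw, h3, h4⟩ := h2
    rw [h3, h4] at h
    have hv : v ∈ (sub ι H U hU).verts := ⟨w, h⟩
    have hw : w ∈ (sub ι H U hU).verts := ⟨v, inS_symm h⟩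
    have h5 : (sub ι H U hU).coe.Adj ⟨v, hv⟩ ⟨w, hw⟩ := h
    have h6 := φ.map_adj_iff.mpr h5
    have h7 : a = f' ⟨v, hv⟩ := by
      rw [← hg]
      show a = e.extendSubtype (ι v)
      rw [← h3, Equiv.apply_symm_apply]
    have h8 : b = f' ⟨w, hw⟩ := by
      rw [← hg]
      show b = e.extendSubtype (ι w)
      rw [← h4, Equiv.apply_symm_apply]
    rw [h7, h8]
    exact h6
  · intro h
    have ha : a ∈ G'.verts := G'.edge_vert h
    have hb : b ∈ G'.verts := G'.edge_vert h.symm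
    have h5 : G'.coe.Adj ⟨a, ha⟩ ⟨b, hb⟩ := h
    have h6 := φ.symm.map_adj_iff.mpr h5
    have h7 : a = e.extendSubtype (f (φ.symm ⟨a, ha⟩)) := by
      rw [hg]
      show a = (φ (φ.symm ⟨a, ha⟩)).1
      have h5 : φ (φ.symm ⟨a, ha⟩) = ⟨a, ha⟩ := φ.toEquiv.apply_symm_apply _
      rw [h5]
    have h8 : b = e.extendSubtype (f (φ.symm ⟨b, hb⟩)) := by
      rw [hg]
      show b = (φ (φ.symm ⟨b, hb⟩)).1
      have h5 : φ (φ.symm ⟨b, hb⟩) = ⟨b, hb⟩ := φ.toEquiv.apply_symm_apply _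
      rw [h5]
    have h9 : e.extendSubtype.symm a = f (φ.symm ⟨a, ha⟩) := by
      rw [Equiv.symm_apply_eq]
      exact h7
    have h10 : e.extendSubtype.symm b = f (φ.symm ⟨b, hb⟩) := by
      rw [Equiv.symm_apply_eq]
      exact h8
    rw [h9, h10]
    exact h6

theorem exists_iso {n : ℕ} {V : Type} (ι : V ↪ Fin n) (H : SimpleGraph V)
    (U : Finset (EX n)) (hU : U ⊆ edg ι H) {W S : Finset (EX n)} (hSW : S ⊆ W)
    (g : Equiv.Perm (Fin n)) (hg : im (act n) g U = S) :
    Nonempty ((sub ι H U hU).coe ≃g (sub2 W S hSW).coe) := by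
  have h1 : ∀ x y, inS U (ι x) (ι y) ↔ inS S (g (ι x)) (g (ι y)) := by
    intro x y
    rw [← hg, inS_im]
  let f : (sub ι H U hU).verts → (sub2 W S hSW).verts := fun x => ⟨g (ι x.1), by
    obtain ⟨y, hy⟩ := x.2
    exact ⟨g (ι y), (h1 _ _).mp hy⟩⟩
  have hf : Function.Bijective f := by
    constructor
    · intro x y h
      have h2 : g (ι x.1) = g (ι y.1) := congrArg Subtype.val h
      exact Subtype.ext (ι.injective (g.injective h2))
    · rintro ⟨x, y, hxy⟩
      have h2 : inS U (g.symm x) (g.symm y) := by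
        rw [← inS_im', hg]
        exact hxy
      have h3 := inS_mono hU h2
      rw [inS_edg] at h3
      obtain ⟨v, w, hvw, h4, h5⟩ := h3
      rw [h4, h5] at h2
      refine ⟨⟨v, w, h2⟩, ?_⟩
      apply Subtype.ext
      show g (ι v) = x
      rw [← h4, Equiv.apply_symm_apply]
  refine ⟨⟨Equiv.ofBijective f hf, ?_⟩⟩
  intro x y
  exact (h1 x.1 y.1).symm

theorem copyCount_gr {n : ℕ} {V : Type} (ι : V ↪ Fin n) (H : SimpleGraph V) (U : Finset (EX n))
    (hU : U ⊆ edg ι H) (W : Finset (EX n)) :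
    (gr W).copyCount (sub ι H U hU).coe = N (act n) W U := by
  rw [N_eq_NS]
  unfold SimpleGraph.copyCount
  apply card_bij (fun G' _ => se G')
  · intro G' hG'
    rw [mem_filter] at hG'
    obtain ⟨φ⟩ := hG'.2
    rw [mem_NS]
    refine ⟨?_, exists_perm ι H U hU G' φ⟩
    apply subset_of_inS
    intro x y h
    rw [inS_se] at h
    exact G'.adj_sub h
  · intro G₁ h₁ G₂ h₂ h12
    rw [mem_filter] at h₁ h₂
    obtain ⟨φ₁⟩ := h₁.2
    obtain ⟨φ₂⟩ := h₂.2
    have hadj : ∀ x y, G₁.Adj x y ↔ G₂.Adj x y := by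
      intro x y
      rw [← inS_se, ← inS_se]
      have : se G₁ = se G₂ := h12
      rw [this]
    apply SimpleGraph.Subgraph.ext
    · ext x
      rw [sub_verts_of_iso ι H U hU G₁ φ₁, sub_verts_of_iso ι H U hU G₂ φ₂]
      simp_rw [hadj]
    · ext x y
      exact hadj x y
  · intro S hS
    rw [mem_NS] at hS
    obtain ⟨hSW, g, hg⟩ := hS
    have h1 := exists_iso ι H U hU hSW g hg
    have h2 : se (sub2 W S hSW) = S := by
      apply ext_of_inS
      intro x y
      rw [inS_se]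
      rfl
    generalize sub2 W S hSW = T at h1 h2
    refine ⟨T, ?_, h2⟩
    rw [mem_filter]
    refine ⟨?_, h1⟩
    simp only [Finset.mem_univ]

theorem card_of_mem_NS {X G : Type} [Fintype X] [Group G] [Fintype G] (a : G →* Equiv.Perm X)
    {A F S : Finset X} (h : S ∈ NS a A F) : S.card = F.card := by
  rw [mem_NS] at h
  obtain ⟨_, g, rfl⟩ := h
  unfold im
  rw [card_map]

theorem NS_card_eq {X G : Type} [Fintype X] [Group G] [Fintype G] (a : G →* Equiv.Perm X)
    (A F : Finset X) : ((NS a A F).card : ℝ) = ∑ S ∈ NS a univ F, if S ⊆ A then 1 else 0 := by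
  rw [← sum_filter, sum_const, nsmul_eq_mul, mul_one]
  congr 2
  ext S
  rw [mem_filter, mem_NS, mem_NS]
  constructor
  · rintro ⟨h1, h2⟩
    exact ⟨⟨subset_univ _, h2⟩, h1⟩
  · rintro ⟨⟨_, h2⟩, h1⟩
    exact ⟨h1, h2⟩

theorem sum_bw_N {X G : Type} [Fintype X] [Group G] [Fintype G] (a : G →* Equiv.Perm X)
    (p : ℝ) (F : Finset X)
    (hsup : ∀ S : Finset X, ∑ W ∈ univ.filter (fun W : Finset X => S ⊆ W), bw p W = p ^ S.card) :
    ∑ W : Finset X, bw p W * (N a W F : ℝ) = (N a univ F : ℝ) * p ^ F.card := by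
  calc ∑ W : Finset X, bw p W * (N a W F : ℝ)
      = ∑ W : Finset X, ∑ S ∈ NS a univ F, bw p W * (if S ⊆ W then 1 else 0) := by
        apply sum_congr rfl
        intro W _
        rw [N_eq_NS, NS_card_eq, mul_sum]
    _ = ∑ S ∈ NS a univ F, ∑ W : Finset X, bw p W * (if S ⊆ W then 1 else 0) := sum_comm
    _ = ∑ S ∈ NS a univ F, p ^ F.card := by
        apply sum_congr rfl
        intro S hS
        rw [← card_of_mem_NS a hS, ← hsup S, sum_filter]
        apply sum_congr rfl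
        intro W _
        rw [mul_ite, mul_one, mul_zero]
    _ = _ := by
        rw [sum_const, nsmul_eq_mul, N_eq_NS]

/-- T3, with the elementary fact `sum_bw_superset` (T1) as a hypothesis. -/
theorem gexp_eq_of {n : ℕ} {V : Type} (ι : V ↪ Fin n) (H : SimpleGraph V) (U : Finset (EX n))
    (hU : U ⊆ edg ι H)
    (hsup : ∀ (X : Type) [Fintype X] (p : ℝ) (S : Finset X),
      ∑ W ∈ univ.filter (fun W : Finset X => S ⊆ W), bw p W = p ^ S.card) :
    ∃ F : H.Subgraph, ∀ p : ℝ, gexp n p F.coe = (N (act n) univ U : ℝ) * p ^ U.card := by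
  refine ⟨sub ι H U hU, fun p => ?_⟩
  unfold gexp
  rw [sum_gw]
  simp_rw [copyCount_gr ι H U hU]
  exact sum_bw_N (act n) p U (hsup (EX n) p)

/-- T3 -/
theorem gexp_eq {n : ℕ} {V : Type} (ι : V ↪ Fin n) (H : SimpleGraph V) (U : Finset (EX n))
    (hU : U ⊆ edg ι H) : ∃ F : H.Subgraph, ∀ p : ℝ,
      gexp n p F.coe = (N (act n) univ U : ℝ) * p ^ U.card :=
  gexp_eq_of ι H U hU (fun _ _ p S => sum_bw_superset p S)

end Vale.Agent.H2.P064
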