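import Vale.Agent.H2.P064.T2
import Vale.Agent.H2.P064.T3

/-! T5: from spreadness to thresholds. -/

namespace Vale.Agent.H2.P064

open Finset Classical

set_option linter.unusedSectionVars false

namespace A5

section act5

variable {X G : Type} [Fintype X] [Group G] [Fintype G] (a : G →* Equiv.Perm X)

theorem im_im (g g' : G) (F : Finset X) : im a g (im a g' F) = im a (g * g') F := by
  unfold im
  rw [Finset.map_map]
  congr 1
  ext x
  simp [Function.Embedding.trans]

theorem im_one (F : Finset X) : im a 1 F = F := by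
  unfold im
  rw [map_one]
  exact Finset.map_refl

theorem im_card (g : G) (F : Finset X) : (im a g F).card = F.card := by
  unfold im
  rw [Finset.card_map]

theorem im_mono (g : G) {F F' : Finset X} (h : F ⊆ F') : im a g F ⊆ im a g F' := by
  unfold im
  exact Finset.map_subset_map.mpr h

theorem im_subset_iff (g : G) (F A : Finset X) : im a g F ⊆ A ↔ F ⊆ im a g⁻¹ A := by
  constructor
  · intro h
    have := im_mono a g⁻¹ h
    rwa [im_im, inv_mul_cancel, im_one] at this
  · intro h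
    have := im_mono a g h
    rwa [im_im, mul_inv_cancel, im_one] at this

theorem P_im (A F : Finset X) (g : G) : P a A (im a g F) = P a A F := by
  unfold P
  congr 2
  refine Finset.card_bij (fun h _ => h * g) ?_ ?_ ?_
  · intro h hh
    rw [Finset.mem_filter] at hh ⊢
    refine ⟨Finset.mem_univ _, ?_⟩
    rw [← im_im]; exact hh.2
  · intro h _ h' _ e
    exact mul_right_cancel e
  · intro h hh
    rw [Finset.mem_filter] at hh
    refine ⟨h * g⁻¹, ?_, by simp⟩
    rw [Finset.mem_filter]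
    refine ⟨Finset.mem_univ _, ?_⟩
    rw [im_im, inv_mul_cancel_right]
    exact hh.2

/-- every cover of the orbit of `A` has large cost -/
theorem cover_cost (A : Finset X) (p : ℝ) (hp : 0 < p)
    (hP : ∀ U ⊆ A, P a A U ≤ p ^ U.card) (𝓖 : Finset (Finset X))
    (h𝓖 : ∀ g : G, ∃ T ∈ 𝓖, T ⊆ im a g A) : 1 ≤ ∑ T ∈ 𝓖, p ^ T.card := by
  have hG : 0 < (Fintype.card G : ℝ) := by exact_mod_cast Fintype.card_pos
  have h1 : ∀ T, P a A T ≤ p ^ T.card := by
    intro T
    by_cases h : ∃ g : G, im a g T ⊆ A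
    · obtain ⟨g, hg⟩ := h
      have := hP _ hg
      rwa [P_im, im_card] at this
    · have : P a A T = 0 := by
        unfold P
        rw [Finset.filter_eq_empty_iff.mpr]
        · simp
        · intro g _ hg
          exact h ⟨g, hg⟩
      rw [this]
      positivity
  have h2 : (1 : ℝ) ≤ ∑ T ∈ 𝓖, P a A T := by
    unfold P
    rw [← Finset.sum_div, le_div_iff₀ hG, one_mul]
    have h3 : (univ : Finset G) ⊆ 𝓖.biUnion (fun T => univ.filter (fun g : G => im a g T ⊆ A)) := by
      intro g _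
      obtain ⟨T, hT, hTg⟩ := h𝓖 g⁻¹
      rw [Finset.mem_biUnion]
      refine ⟨T, hT, ?_⟩
      rw [Finset.mem_filter]
      exact ⟨Finset.mem_univ _, (im_subset_iff a g T A).mpr hTg⟩
    have h4 := (Finset.card_le_card h3).trans Finset.card_biUnion_le
    rw [Finset.card_univ] at h4
    exact_mod_cast h4
  exact h2.trans (Finset.sum_le_sum fun T _ => h1 T)

end act5

end A5

open A5

theorem gw_one_nonneg (n : ℕ) (G : SimpleGraph (Fin n)) : 0 ≤ gw n 1 G := by
  unfold gw
  rw [sub_self]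
  positivity

theorem card_top_any (n : ℕ) (inst : Fintype (⊤ : SimpleGraph (Fin n)).edgeSet) :
    (@SimpleGraph.edgeFinset _ (⊤ : SimpleGraph (Fin n)) inst).card = n.choose 2 := by
  have h := SimpleGraph.card_edgeFinset_top_eq_card_choose_two (V := Fin n)
  rw [Fintype.card_fin] at h
  rw [← h]
  refine congrArg Finset.card ?_
  ext e
  simp only [SimpleGraph.mem_edgeFinset]

theorem gw_one_top (n : ℕ) : gw n 1 (⊤ : SimpleGraph (Fin n)) = 1 := by
  unfold gw
  rw [one_pow, one_mul, sub_self, card_top_any, Nat.sub_self, pow_zero]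

theorem pESet_closed (n : ℕ) {V : Type} (H : SimpleGraph V) : IsClosed (pESet n H) := by
  have e : pESet n H = {p | 0 ≤ p} ∩ ({p | p ≤ 1} ∩ ⋂ F : H.Subgraph,
      {p : ℝ | 1 / 2 ≤ gexp n p F.coe}) := by
    ext p
    simp [pESet]
  rw [e]
  refine IsClosed.inter (isClosed_le continuous_const continuous_id)
    (IsClosed.inter (isClosed_le continuous_id continuous_const) (isClosed_iInter fun F => ?_))
  refine isClosed_le continuous_const ?_
  unfold gexp gw
  fun_prop

theorem one_mem_pESet (n : ℕ) {V : Type} [Fintype V] (H : SimpleGraph V)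
    (hV : Fintype.card V ≤ n) : (1 : ℝ) ∈ pESet n H := by
  refine ⟨zero_le_one, le_refl _, fun F => ?_⟩
  have hc : (⊤ : SimpleGraph (Fin n)).copyCount F.coe ≠ 0 := by
    rw [← Nat.pos_iff_ne_zero, SimpleGraph.copyCount_pos]
    have hcard : Fintype.card V ≤ Fintype.card (Fin n) := by rw [Fintype.card_fin]; exact hV
    obtain ⟨ι⟩ := Function.Embedding.nonempty_of_card_le hcard
    exact ⟨⟨⟨fun x => ι x.1, fun {x y} hxy => by
      rw [SimpleGraph.top_adj]
      exact fun e => hxy.ne (Subtype.ext (ι.injective e))⟩,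
      fun x y e => Subtype.ext (ι.injective e)⟩⟩
  have h1 : (1 : ℝ) ≤ ((⊤ : SimpleGraph (Fin n)).copyCount F.coe : ℝ) := by
    exact_mod_cast Nat.one_le_iff_ne_zero.mpr hc
  have h2 : gw n 1 (⊤ : SimpleGraph (Fin n)) * ((⊤ : SimpleGraph (Fin n)).copyCount F.coe : ℝ)
      ≤ gexp n 1 F.coe := by
    unfold gexp
    exact Finset.single_le_sum (f := fun G : SimpleGraph (Fin n) =>
      gw n 1 G * (G.copyCount F.coe : ℝ)) (fun G _ => mul_nonneg (gw_one_nonneg n G)
        (Nat.cast_nonneg _)) (Finset.mem_univ _)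
  rw [gw_one_top, one_mul] at h2
  linarith

theorem bw_one_nonneg {X : Type} [Fintype X] (W : Finset X) : 0 ≤ bw 1 W := by
  unfold bw
  rw [sub_self]
  positivity

theorem bw_one_univ {X : Type} [Fintype X] : bw 1 (univ : Finset X) = 1 := by
  unfold bw
  simp

theorem pr_one {X : Type} [Fintype X] (A : Finset X → Prop) (hA : A univ) : 1 ≤ pr 1 A := by
  unfold pr
  refine le_trans (le_of_eq (bw_one_univ (X := X)).symm) ?_
  exact Finset.single_le_sum (f := fun W : Finset X => bw 1 W) (fun W _ => bw_one_nonneg W)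
    (Finset.mem_filter.mpr ⟨Finset.mem_univ _, hA⟩)

theorem edg_nonempty {n : ℕ} {V : Type} (ι : V ↪ Fin n) (H : SimpleGraph V) (hH : H ≠ ⊥) :
    (edg ι H).Nonempty := by
  obtain ⟨x, y, hxy⟩ := SimpleGraph.ne_bot_iff_exists_adj.mp hH
  refine ⟨⟨s(ι x, ι y), ?_⟩, ?_⟩
  · rw [Sym2.mk_isDiag_iff]
    exact fun h => hxy.ne (ι.injective h)
  · unfold edg
    rw [Finset.mem_filter]
    exact ⟨Finset.mem_univ _, x, y, hxy, rfl⟩

/-- T5. From spreadness to thresholds. -/
theorem graph_of_spread :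
    ∃ K : ℝ, 0 < K ∧ ∀ n, 2 ≤ n → ∀ (V : Type) [Fintype V] (H : SimpleGraph V), H ≠ ⊥ →
      Fintype.card V ≤ n → ∀ Λ : ℝ, 1 ≤ Λ →
      (∀ (ι : V ↪ Fin n) (q : ℝ), 0 < q → q ≤ 1 →
        (∀ U ⊆ edg ι H, 1 / 2 ≤ (N (act n) univ U : ℝ) * q ^ U.card) →
        ∀ U ⊆ edg ι H, P (act n) (edg ι H) U ≤ (Λ * q) ^ U.card) →
      pc n H ≤ K * Λ * Real.log n * pE n H := by
  obtain ⟨K, hK, hPP⟩ := park_pham
  refine ⟨2 * K, by positivity, ?_⟩
  intro n hn V _ H hH hV Λ hΛn h
  have hcard : Fintype.card V ≤ Fintype.card (Fin n) := by rw [Fintype.card_fin]; exact hV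
  obtain ⟨ι⟩ := Function.Embedding.nonempty_of_card_le hcard
  have hq : pE n H ∈ pESet n H := by
    unfold pE
    exact (pESet_closed n H).csInf_mem ⟨1, one_mem_pESet n H hV⟩ ⟨0, fun p hp => hp.1⟩
  set q := pE n H with hqdef
  obtain ⟨hq0, hq1, hqF⟩ := hq
  set Hn := edg ι H with hHn
  have hHne : Hn.Nonempty := edg_nonempty ι H hH
  have hU : ∀ U ⊆ Hn, 1 / 2 ≤ (N (act n) univ U : ℝ) * q ^ U.card := by
    intro U hU
    obtain ⟨F, hF⟩ := gexp_eq ι H U hU
    rw [← hF q]
    exact hqF F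
  have hqpos : 0 < q := by
    rcases hq0.lt_or_eq with h0 | h0
    · exact h0
    · exfalso
      have := hU Hn (Finset.Subset.refl _)
      rw [← h0, zero_pow (Finset.card_ne_zero.mpr hHne), mul_zero] at this
      norm_num at this
  have hP := h ι q hqpos hq1 hU
  set p := Λ * q with hp
  have hp0 : 0 < p := by positivity
  set 𝓗 : Finset (Finset (EX n)) := univ.image (fun g : Equiv.Perm (Fin n) => im (act n) g Hn)
    with h𝓗
  set ℓ := max 2 Hn.card with hℓ
  have hℓ2 : 2 ≤ ℓ := le_max_left _ _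
  have hcard𝓗 : ∀ S ∈ 𝓗, S.card ≤ ℓ := by
    intro S hS
    rw [h𝓗, Finset.mem_image] at hS
    obtain ⟨g, _, rfl⟩ := hS
    rw [im_card]
    exact le_max_right _ _
  have hcover : ∀ 𝓖 : Finset (Finset (EX n)), (∀ S ∈ 𝓗, ∃ T ∈ 𝓖, T ⊆ S) →
      1 / 2 < ∑ T ∈ 𝓖, p ^ T.card := by
    intro 𝓖 h𝓖
    have := cover_cost (act n) Hn p hp0 hP 𝓖 (fun g => h𝓖 _ (by
      rw [h𝓗, Finset.mem_image]; exact ⟨g, Finset.mem_univ _, rfl⟩))
    linarith
  have hpr : ∀ p', pr p' (fun W => ∃ S ∈ 𝓗, S ⊆ W)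
      = gprob n p' (fun G => 0 < G.copyCount H) := by
    intro p'
    rw [gprob_eq ι H p']
    congr 1
    funext W
    rw [h𝓗]
    simp [hHn]
  have hn' : (2 : ℝ) ≤ n := by exact_mod_cast hn
  have hlogn : 0 < Real.log n := Real.log_pos (by linarith)
  have hlogℓ : Real.log ℓ ≤ 2 * Real.log n := by
    have h1 : ℓ ≤ n ^ 2 := by
      rw [hℓ]
      refine max_le (by nlinarith) ?_
      calc Hn.card ≤ Fintype.card (EX n) := Finset.card_le_univ _
        _ = n.choose 2 := by rw [Sym2.card_subtype_not_diag, Fintype.card_fin]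
        _ ≤ n ^ 2 := Nat.choose_le_pow n 2
    have h2 : (ℓ : ℝ) ≤ (n : ℝ) ^ 2 := by exact_mod_cast h1
    have h3 : (0 : ℝ) < ℓ := by exact_mod_cast (by omega : 0 < ℓ)
    calc Real.log ℓ ≤ Real.log ((n : ℝ) ^ 2) := Real.log_le_log h3 h2
      _ = 2 * Real.log n := by rw [Real.log_pow]; push_cast; ring
  have hlogℓ0 : 0 ≤ Real.log ℓ := Real.log_nonneg (by exact_mod_cast (by omega : 1 ≤ ℓ))
  have hbdd : BddBelow (pcSet n H) := ⟨0, fun p hp => hp.1⟩
  have hmain : K * p * Real.log ℓ ≤ 2 * K * Λ * Real.log n * q := by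
    calc K * p * Real.log ℓ ≤ K * p * (2 * Real.log n) := by gcongr
      _ = 2 * K * Λ * Real.log n * q := by rw [hp]; ring
  rcases le_or_gt (K * p * Real.log ℓ) 1 with hle | hgt
  · have h1 := hPP (EX n) 𝓗 ℓ p hℓ2 hcard𝓗 hp0 hle hcover
    rw [hpr] at h1
    have h2 : K * p * Real.log ℓ ∈ pcSet n H := ⟨by positivity, hle, h1⟩
    exact (csInf_le hbdd h2).trans hmain
  · have h1 : (1 : ℝ) ∈ pcSet n H := by
      refine ⟨zero_le_one, le_refl _, ?_⟩
      rw [← hpr]
      have := pr_one (X := EX n) (fun W => ∃ S ∈ 𝓗, S ⊆ W) ⟨im (act n) 1 Hn, by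
        rw [h𝓗, Finset.mem_image]; exact ⟨1, Finset.mem_univ _, rfl⟩, Finset.subset_univ _⟩
      linarith
    have h2 : pc n H ≤ 1 := csInf_le hbdd h1
    linarith

end Vale.Agent.H2.P064
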